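import Mathlib

/-!
Bang's plank theorem in a real Hilbert space, with the sign argument and the
fitting argument written out, and its version for arbitrary sets of offsets
measured with outer Lebesgue measure on the real line.
-/

open MeasureTheory Set

namespace Vale.Agent.P243

variable {E : Type*} [NormedAddCommGroup E] [InnerProductSpace ℝ E]

/-- The sign attached to a Boolean value. -/
noncomputable def bsign (b : Bool) : ℝ := if b then 1 else -1

lemma bsign_sq (b : Bool) : bsign b * bsign b = 1 := by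
  cases b <;> simp [bsign]

lemma bsign_not (b : Bool) : bsign (!b) = - bsign b := by
  cases b <;> simp [bsign]

lemma abs_bsign (b : Bool) : |bsign b| = 1 := by
  cases b <;> simp [bsign]

/-- The point of the zonotope attached to a choice of signs. -/
noncomputable def zpoint {J : Type*} [Fintype J] (n : J → E) (θ : J → ℝ) (σ : J → Bool) : E :=
  ∑ k, (bsign (σ k) * θ k) • n k

/-- Bang's sign lemma. -/
theorem sign_lemma {J : Type*} [Fintype J] [DecidableEq J] (n : J → E) (hn : ∀ j, ‖n j‖ = 1)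
    (m θ : J → ℝ) (hθ : ∀ j, 0 ≤ θ j) :
    ∃ σ : J → Bool, ∀ j, θ j ≤ |inner ℝ (zpoint n θ σ) (n j) - m j| := by
  classical
  let Φ : (J → Bool) → ℝ := fun σ =>
    ‖zpoint n θ σ‖ ^ 2 - 2 * ∑ k, bsign (σ k) * θ k * m k
  obtain ⟨σ, hσ⟩ := Finite.exists_max Φ
  refine ⟨σ, fun j => ?_⟩
  rcases (hθ j).eq_or_lt with h0 | hpos
  · rw [← h0]; exact abs_nonneg _
  -- flip the sign at j
  set σ' : J → Bool := Function.update σ j (!σ j) with hσ'
  have hz : zpoint n θ σ' = zpoint n θ σ - (2 * (bsign (σ j) * θ j)) • n j := by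
    have hsplit : ∀ τ : J → Bool, zpoint n θ τ
        = (bsign (τ j) * θ j) • n j + ∑ k ∈ Finset.univ.erase j, (bsign (τ k) * θ k) • n k := by
      intro τ
      simp [zpoint]
    rw [hsplit σ', hsplit σ]
    have hrest : ∑ k ∈ Finset.univ.erase j, (bsign (σ' k) * θ k) • n k
        = ∑ k ∈ Finset.univ.erase j, (bsign (σ k) * θ k) • n k := by
      refine Finset.sum_congr rfl fun k hk => ?_
      have : k ≠ j := Finset.ne_of_mem_erase hk
      simp [hσ', Function.update_of_ne this]
    rw [hrest]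
    have h1 : σ' j = !σ j := by simp [hσ']
    rw [h1, bsign_not]
    have : (-bsign (σ j) * θ j) • n j = (bsign (σ j) * θ j) • n j - (2 * (bsign (σ j) * θ j)) • n j := by
      rw [← sub_smul]; congr 1; ring
    rw [this]; abel
  have hs : ∑ k, bsign (σ' k) * θ k * m k
      = ∑ k, bsign (σ k) * θ k * m k - 2 * (bsign (σ j) * θ j * m j) := by
    have hsplit : ∀ τ : J → Bool, ∑ k, bsign (τ k) * θ k * m k
        = bsign (τ j) * θ j * m j + ∑ k ∈ Finset.univ.erase j, bsign (τ k) * θ k * m k := by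
      intro τ
      simp
    rw [hsplit σ', hsplit σ]
    have hrest : ∑ k ∈ Finset.univ.erase j, bsign (σ' k) * θ k * m k
        = ∑ k ∈ Finset.univ.erase j, bsign (σ k) * θ k * m k := by
      refine Finset.sum_congr rfl fun k hk => ?_
      have : k ≠ j := Finset.ne_of_mem_erase hk
      simp [hσ', Function.update_of_ne this]
    rw [hrest]
    have h1 : σ' j = !σ j := by simp [hσ']
    rw [h1, bsign_not]; ring
  have hle := hσ σ'
  have hΦ : Φ σ' = ‖zpoint n θ σ‖ ^ 2
      - 4 * (bsign (σ j) * θ j) * inner ℝ (zpoint n θ σ) (n j)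
      + 4 * (θ j) ^ 2
      - 2 * ∑ k, bsign (σ k) * θ k * m k + 4 * (bsign (σ j) * θ j * m j) := by
    simp only [Φ]
    rw [hz, hs, norm_sub_sq_real, inner_smul_right, norm_smul, mul_pow, hn j]
    have h2 : ‖(2 * (bsign (σ j) * θ j))‖ ^ 2 = 4 * θ j ^ 2 := by
      rw [Real.norm_eq_abs, sq_abs]
      have := bsign_sq (σ j)
      calc (2 * (bsign (σ j) * θ j)) ^ 2 = 4 * (bsign (σ j) * bsign (σ j)) * θ j ^ 2 := by ring
        _ = 4 * θ j ^ 2 := by rw [this]; ring
    rw [h2]; ring
  have hineq : θ j ^ 2 ≤ bsign (σ j) * θ j * (inner ℝ (zpoint n θ σ) (n j) - m j) := by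
    have : Φ σ' ≤ Φ σ := hle
    rw [hΦ] at this
    simp only [Φ] at this
    nlinarith
  have hfinal : θ j ≤ bsign (σ j) * (inner ℝ (zpoint n θ σ) (n j) - m j) := by
    have h3 : θ j * θ j ≤ θ j * (bsign (σ j) * (inner ℝ (zpoint n θ σ) (n j) - m j)) := by
      nlinarith
    exact le_of_mul_le_mul_left h3 hpos
  calc θ j ≤ bsign (σ j) * (inner ℝ (zpoint n θ σ) (n j) - m j) := hfinal
    _ ≤ |bsign (σ j) * (inner ℝ (zpoint n θ σ) (n j) - m j)| := le_abs_self _
    _ = |inner ℝ (zpoint n θ σ) (n j) - m j| := by rw [abs_mul, abs_bsign, one_mul]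


/-- Fitting lemma: a zonotope whose generators have total length at most the
minimal width of a compact convex set has a translate inside that set. -/
theorem fit_lemma [CompleteSpace E] {C : Set E} (hCc : IsCompact C) (hCv : Convex ℝ C)
    (hne : C.Nonempty) {J : Type*} [Fintype J] (n : J → E) (hn : ∀ j, ‖n j‖ = 1)
    (θ : J → ℝ) (hθ : ∀ j, 0 ≤ θ j) (w : ℝ)
    (hw : ∀ a : E, ‖a‖ = 1 → ∃ x ∈ C, ∃ y ∈ C, w ≤ inner ℝ (x - y) a)
    (hsum : ∑ j, 2 * θ j ≤ w) :
    ∃ c : E, ∀ σ : J → Bool, c + zpoint n θ σ ∈ C := by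
  classical
  by_contra hcon
  push Not at hcon
  let z : (J → Bool) → E := fun σ => zpoint n θ σ
  let CC : Set ((J → Bool) → E) := Set.pi univ (fun _ => C)
  let DD : Set ((J → Bool) → E) := Set.range (fun c : E => fun σ : J → Bool => c + z σ)
  have hCCc : IsCompact CC := isCompact_univ_pi (fun _ => hCc)
  have hCCv : Convex ℝ CC := convex_pi (fun _ _ => hCv)
  have hDDv : Convex ℝ DD := by
    rintro _ ⟨c₁, rfl⟩ _ ⟨c₂, rfl⟩ a b _ _ hab
    refine ⟨a • c₁ + b • c₂, ?_⟩
    funext σ
    simp only [Pi.add_apply, Pi.smul_apply, smul_add]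
    have : z σ = a • z σ + b • z σ := by rw [← add_smul, hab, one_smul]
    nth_rewrite 1 [this]
    abel
  have hDDc : IsClosed DD := by
    let σ₀ : J → Bool := fun _ => true
    have : DD = ⋂ σ : J → Bool, {y : (J → Bool) → E | y σ - z σ = y σ₀ - z σ₀} := by
      ext y
      simp only [DD, Set.mem_range, Set.mem_iInter, Set.mem_ofPred_eq]
      constructor
      · rintro ⟨c, rfl⟩ σ
        simp
      · intro h
        refine ⟨y σ₀ - z σ₀, ?_⟩
        funext σ
        rw [← h σ]; abel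
    rw [this]
    refine isClosed_iInter fun σ => isClosed_eq ?_ ?_
    · exact (continuous_apply σ).sub continuous_const
    · exact (continuous_apply σ₀).sub continuous_const
  have hdisj : Disjoint CC DD := by
    rw [Set.disjoint_left]
    rintro y hy ⟨c, rfl⟩
    obtain ⟨σ, hσ⟩ := hcon c
    exact hσ (hy σ (mem_univ _))
  obtain ⟨f, u, v, hfu, huv, hfv⟩ :=
    geometric_hahn_banach_compact_closed hCCv hCCc hDDv hDDc hdisj
  let fs : (J → Bool) → (E →L[ℝ] ℝ) := fun σ =>
    f.comp (ContinuousLinearMap.single ℝ (fun _ : J → Bool => E) σ)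
  have hf : ∀ y : (J → Bool) → E, f y = ∑ σ, fs σ (y σ) := by
    intro y
    conv_lhs => rw [← Finset.univ_sum_single y]
    rw [map_sum]
    rfl
  have hg0 : ∀ c : E, ∑ σ, fs σ c = 0 := by
    intro c
    by_contra hG
    set G := ∑ σ, fs σ c with hGdef
    set Z := ∑ σ, fs σ (z σ) with hZdef
    have key : ∀ l : ℝ, v < l * G + Z := by
      intro l
      have hmem : (fun σ => (l • c) + z σ) ∈ DD := ⟨l • c, rfl⟩
      have h := hfv _ hmem
      rw [hf] at h
      have : ∑ σ, fs σ (l • c + z σ) = l * G + Z := by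
        simp only [map_add, map_smul, smul_eq_mul, Finset.sum_add_distrib, hGdef, hZdef,
          Finset.mul_sum]
      linarith
    have := key ((v - Z - 1) / G)
    rw [div_mul_cancel₀ _ hG] at this
    linarith
  have hmax : ∀ σ, ∃ p ∈ C, ∀ x ∈ C, fs σ x ≤ fs σ p := by
    intro σ
    obtain ⟨p, hp, hpm⟩ := hCc.exists_isMaxOn hne (fs σ).continuous.continuousOn
    exact ⟨p, hp, fun x hx => hpm hx⟩
  choose p hpC hpm using hmax
  set H := ∑ σ, fs σ (p σ) with hH
  set Z := ∑ σ, fs σ (z σ) with hZ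
  have hHZ : H < Z := by
    have h1 : f p < u := hfu p (fun σ _ => hpC σ)
    have h2 : v < f (fun σ => (0 : E) + z σ) := hfv _ ⟨0, rfl⟩
    rw [hf] at h1 h2
    simp only [zero_add] at h2
    linarith
  obtain ⟨x₀, hx₀⟩ := hne
  have hH0 : 0 ≤ H := by
    calc (0 : ℝ) = ∑ σ, fs σ x₀ := (hg0 x₀).symm
      _ ≤ H := Finset.sum_le_sum fun σ _ => hpm σ x₀ hx₀
  have hZle : Z ≤ ∑ k, θ k * ∑ σ, |fs σ (n k)| := by
    have h1 : ∀ σ, fs σ (z σ) ≤ ∑ k, θ k * |fs σ (n k)| := by
      intro σ
      simp only [z, zpoint, map_sum, map_smul, smul_eq_mul]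
      refine Finset.sum_le_sum fun k _ => ?_
      have h2 : bsign (σ k) * fs σ (n k) ≤ |fs σ (n k)| := by
        calc bsign (σ k) * fs σ (n k) ≤ |bsign (σ k) * fs σ (n k)| := le_abs_self _
          _ = |fs σ (n k)| := by rw [abs_mul, abs_bsign, one_mul]
      nlinarith [hθ k]
    calc Z ≤ ∑ σ, ∑ k, θ k * |fs σ (n k)| := Finset.sum_le_sum fun σ _ => h1 σ
      _ = ∑ k, ∑ σ, θ k * |fs σ (n k)| := Finset.sum_comm
      _ = ∑ k, θ k * ∑ σ, |fs σ (n k)| := by
        refine Finset.sum_congr rfl fun k _ => ?_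
        rw [Finset.mul_sum]
  -- the functionals grouped by sign
  have hk : ∀ k, ∃ G : ℝ, 0 ≤ G ∧ ∑ σ, |fs σ (n k)| ≤ 2 * G ∧ w * G ≤ H := by
    intro k
    let P : Finset (J → Bool) := Finset.univ.filter (fun σ => 0 ≤ fs σ (n k))
    let g : E →L[ℝ] ℝ := ∑ σ ∈ P, fs σ
    have hgapp : ∀ x, g x = ∑ σ ∈ P, fs σ x := by
      intro x
      simp [g]
    have hsplit : ∀ (F : (J → Bool) → ℝ),
        ∑ σ, F σ = ∑ σ ∈ P, F σ + ∑ σ ∈ Finset.univ.filter (fun σ => ¬ 0 ≤ fs σ (n k)), F σ := by
      intro F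
      exact (Finset.sum_filter_add_sum_filter_not Finset.univ _ F).symm
    have hnot : ∀ x, ∑ σ ∈ Finset.univ.filter (fun σ => ¬ 0 ≤ fs σ (n k)), fs σ x = - g x := by
      intro x
      have := hsplit (fun σ => fs σ x)
      rw [hg0 x, hgapp] at *
      linarith
    refine ⟨‖g‖, norm_nonneg _, ?_, ?_⟩
    · have h1 : ∑ σ, |fs σ (n k)| = 2 * g (n k) := by
        rw [hsplit (fun σ => |fs σ (n k)|)]
        have h2 : ∑ σ ∈ P, |fs σ (n k)| = g (n k) := by
          rw [hgapp]
          refine Finset.sum_congr rfl fun σ hσ => abs_of_nonneg ?_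
          exact (Finset.mem_filter.mp hσ).2
        have h3 : ∑ σ ∈ Finset.univ.filter (fun σ => ¬ 0 ≤ fs σ (n k)), |fs σ (n k)|
            = g (n k) := by
          have h4 := hnot (n k)
          have h5 : ∑ σ ∈ Finset.univ.filter (fun σ => ¬ 0 ≤ fs σ (n k)), |fs σ (n k)|
              = - ∑ σ ∈ Finset.univ.filter (fun σ => ¬ 0 ≤ fs σ (n k)), fs σ (n k) := by
            rw [← Finset.sum_neg_distrib]
            refine Finset.sum_congr rfl fun σ hσ => abs_of_neg ?_
            exact not_le.mp (Finset.mem_filter.mp hσ).2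
          rw [h5, h4]; ring
        rw [h2, h3]; ring
      rw [h1]
      have h6 : g (n k) ≤ ‖g‖ := by
        calc g (n k) ≤ ‖g (n k)‖ := le_abs_self _
          _ ≤ ‖g‖ * ‖n k‖ := g.le_opNorm _
          _ = ‖g‖ := by rw [hn k, mul_one]
      linarith
    · rcases eq_or_ne g 0 with hg | hg
      · rw [hg]; simpa using hH0
      · have hgpos : 0 < ‖g‖ := norm_pos_iff.mpr hg
        let rep : E := (InnerProductSpace.toDual ℝ E).symm g
        have hrep : ∀ x, inner ℝ rep x = g x := by
          intro x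
          simp [rep, InnerProductSpace.toDual_symm_apply]
        have hrepn : ‖rep‖ = ‖g‖ := by
          simp [rep]
        let a : E := ‖g‖⁻¹ • rep
        have ha : ‖a‖ = 1 := by
          simp only [a, norm_smul, norm_inv, norm_norm, hrepn]
          field_simp
        obtain ⟨x, hx, y, hy, hxy⟩ := hw a ha
        have h7 : w * ‖g‖ ≤ g (x - y) := by
          have h8 : inner ℝ (x - y) a = ‖g‖⁻¹ * g (x - y) := by
            simp only [a]
            rw [inner_smul_right, real_inner_comm, hrep]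
          rw [h8] at hxy
          calc w * ‖g‖ ≤ (‖g‖⁻¹ * g (x - y)) * ‖g‖ :=
                mul_le_mul_of_nonneg_right hxy hgpos.le
            _ = g (x - y) := by field_simp
        have h9 : g (x - y) ≤ H := by
          rw [hH, hsplit (fun σ => fs σ (p σ))]
          have h10 : g x ≤ ∑ σ ∈ P, fs σ (p σ) := by
            rw [hgapp]
            exact Finset.sum_le_sum fun σ _ => hpm σ x hx
          have h11 : - g y ≤ ∑ σ ∈ Finset.univ.filter (fun σ => ¬ 0 ≤ fs σ (n k)), fs σ (p σ) := by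
            rw [← hnot y]
            exact Finset.sum_le_sum fun σ _ => hpm σ y hy
          rw [map_sub]
          linarith
        linarith
  choose G hG0 hG1 hG2 using hk
  have hfinal : ∑ k, 2 * θ k * G k ≤ H := by
    rcases le_or_gt w 0 with hw0 | hw0
    · have hθ0 : ∀ k, θ k = 0 := by
        have hs0 : ∑ j, 2 * θ j = 0 :=
          le_antisymm (hsum.trans hw0) (Finset.sum_nonneg fun j _ => by linarith [hθ j])
        have := (Finset.sum_eq_zero_iff_of_nonneg (fun j _ => by linarith [hθ j])).mp hs0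
        intro k
        have h := this k (Finset.mem_univ k)
        linarith
      simp only [hθ0, mul_zero, zero_mul, Finset.sum_const_zero]
      exact hH0
    · have h1 : ∀ k, G k ≤ H / w := fun k => by
        rw [le_div_iff₀ hw0]; linarith [hG2 k]
      calc ∑ k, 2 * θ k * G k ≤ ∑ k, 2 * θ k * (H / w) :=
            Finset.sum_le_sum fun k _ =>
              mul_le_mul_of_nonneg_left (h1 k) (by linarith [hθ k])
        _ = (∑ k, 2 * θ k) * (H / w) := by rw [Finset.sum_mul]
        _ ≤ w * (H / w) :=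
            mul_le_mul_of_nonneg_right hsum (div_nonneg hH0 hw0.le)
        _ = H := by field_simp
  have : Z ≤ H := by
    calc Z ≤ ∑ k, θ k * ∑ σ, |fs σ (n k)| := hZle
      _ ≤ ∑ k, 2 * θ k * G k := by
        refine Finset.sum_le_sum fun k _ => ?_
        have := mul_le_mul_of_nonneg_left (hG1 k) (hθ k)
        linarith
      _ ≤ H := hfinal
  linarith

/-- Bang's plank theorem: planks of total width at most the minimal width leave
a point of the body outside all of their interiors. -/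
theorem bang_planks [CompleteSpace E] {C : Set E} (hCc : IsCompact C) (hCv : Convex ℝ C)
    (hne : C.Nonempty) {J : Type*} [Fintype J] (n : J → E) (hn : ∀ j, ‖n j‖ = 1)
    (m θ : J → ℝ) (hθ : ∀ j, 0 ≤ θ j) (w : ℝ)
    (hw : ∀ a : E, ‖a‖ = 1 → ∃ x ∈ C, ∃ y ∈ C, w ≤ inner ℝ (x - y) a)
    (hsum : ∑ j, 2 * θ j ≤ w) :
    ∃ x ∈ C, ∀ j, θ j ≤ |inner ℝ x (n j) - m j| := by
  classical
  obtain ⟨c, hc⟩ := fit_lemma hCc hCv hne n hn θ hθ w hw hsum
  obtain ⟨σ, hσ⟩ := sign_lemma n hn (fun j => m j - inner ℝ c (n j)) θ hθ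
  refine ⟨c + zpoint n θ σ, hc σ, fun j => ?_⟩
  have := hσ j
  rw [inner_add_left]
  convert this using 2
  ring


/-- The half open cell number `k` of mesh `η` on the real line. -/
def gcell (η : ℝ) (k : ℤ) : Set ℝ := Ico ((k : ℝ) * η) (((k : ℝ) + 1) * η)

lemma gcell_disjoint {η : ℝ} (hη : 0 < η) {k l : ℤ} (hkl : k ≠ l) :
    Disjoint (gcell η k) (gcell η l) := by
  rw [Set.disjoint_left]
  rintro x ⟨h1, h2⟩ ⟨h3, h4⟩
  rcases lt_or_gt_of_ne hkl with h | h
  · have : (k : ℝ) + 1 ≤ l := by exact_mod_cast h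
    nlinarith
  · have : (l : ℝ) + 1 ≤ k := by exact_mod_cast h
    nlinarith

lemma volume_gcell {η : ℝ} (k : ℤ) : volume (gcell η k) = ENNReal.ofReal η := by
  simp only [gcell, Real.volume_Ico]
  congr 1
  ring

/-- Bang's theorem for arbitrary sets of offsets: if every point of a compact
convex set has its coordinate in direction `n i` in the set `S i`, for some `i`,
then the total outer measure of the sets `S i` is at least the minimal width. -/
theorem bang_sets [CompleteSpace E] {C : Set E} (hCc : IsCompact C) (hCv : Convex ℝ C)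
    (hne : C.Nonempty) {ι : Type*} [Fintype ι] (n : ι → E) (hn : ∀ i, ‖n i‖ = 1)
    (S : ι → Set ℝ) (hcover : ∀ x ∈ C, ∃ i, inner ℝ x (n i) ∈ S i) (w : ℝ)
    (hw : ∀ a : E, ‖a‖ = 1 → ∃ x ∈ C, ∃ y ∈ C, w ≤ inner ℝ (x - y) a) :
    ENNReal.ofReal w ≤ ∑ i, volume (S i) := by
  classical
  by_contra hlt
  rw [not_le] at hlt
  have hfin : ∀ i, volume (S i) ≠ ⊤ := by
    intro i
    have h1 : volume (S i) ≤ ∑ i, volume (S i) :=
      Finset.single_le_sum (f := fun i => volume (S i)) (fun _ _ => zero_le) (Finset.mem_univ i)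
    exact ne_top_of_le_ne_top (ne_top_of_lt hlt) h1
  set α : ι → ℝ := fun i => (volume (S i)).toReal with hα
  have hsumα : ∑ i, α i < w := by
    have h1 : ∑ i, volume (S i) = ENNReal.ofReal (∑ i, α i) := by
      rw [ENNReal.ofReal_sum_of_nonneg (fun i _ => ENNReal.toReal_nonneg)]
      refine Finset.sum_congr rfl fun i _ => ?_
      exact (ENNReal.ofReal_toReal (hfin i)).symm
    rw [h1] at hlt
    have hw0 : 0 < w := by
      by_contra h
      rw [ENNReal.ofReal_of_nonpos (not_lt.mp h)] at hlt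
      exact not_lt_zero hlt
    exact (ENNReal.ofReal_lt_ofReal_iff hw0).mp hlt
  have hsumα0 : 0 ≤ ∑ i, α i := Finset.sum_nonneg fun i _ => ENNReal.toReal_nonneg
  have hw0 : 0 < w := lt_of_le_of_lt hsumα0 hsumα
  set N : ℝ := (Fintype.card ι : ℝ) + 1 with hN
  have hNpos : 0 < N := by positivity
  set ε : ℝ := (w - ∑ i, α i) / (2 * N) with hε
  have hεpos : 0 < ε := by
    apply div_pos <;> linarith
  have hOex : ∀ i, ∃ O : Set ℝ, S i ⊆ O ∧ IsOpen O ∧ volume O < volume (S i) + ENNReal.ofReal ε := by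
    intro i
    have h0 : ENNReal.ofReal ε ≠ 0 := by
      simpa using hεpos
    exact Set.exists_isOpen_lt_add (S i) (hfin i) h0
  choose O hSO hOo hOv using hOex
  have hOfin : ∀ i, volume (O i) ≠ ⊤ := fun i =>
    ne_top_of_lt (lt_of_lt_of_le (hOv i) le_top)
  set β : ι → ℝ := fun i => (volume (O i)).toReal with hβ
  have hβle : ∀ i, β i ≤ α i + ε := by
    intro i
    have h1 := (hOv i).le
    have h2 : volume (S i) + ENNReal.ofReal ε = ENNReal.ofReal (α i + ε) := by
      rw [ENNReal.ofReal_add ENNReal.toReal_nonneg hεpos.le, ENNReal.ofReal_toReal (hfin i)]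
    rw [h2] at h1
    exact (ENNReal.toReal_le_of_le_ofReal (by positivity) h1)
  have hsumβ : ∑ i, β i < w := by
    calc ∑ i, β i ≤ ∑ i, (α i + ε) := Finset.sum_le_sum fun i _ => hβle i
      _ = ∑ i, α i + (Fintype.card ι : ℝ) * ε := by
        rw [Finset.sum_add_distrib]; simp
      _ < w := by
        have h1 : (Fintype.card ι : ℝ) * ε ≤ N * ε := by
          apply mul_le_mul_of_nonneg_right _ hεpos.le
          simp [hN]
        have h2 : N * ε = (w - ∑ i, α i) / 2 := by
          rw [hε]; field_simp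
        linarith
  -- Lebesgue number
  have hcovW : C ⊆ ⋃ i, (fun x : E => inner ℝ x (n i)) ⁻¹' (O i) := by
    intro x hx
    obtain ⟨i, hi⟩ := hcover x hx
    exact Set.mem_iUnion.mpr ⟨i, hSO i hi⟩
  have hWo : ∀ i, IsOpen ((fun x : E => inner ℝ x (n i)) ⁻¹' (O i)) := by
    intro i
    exact (hOo i).preimage (by fun_prop)
  obtain ⟨η, hηpos, hleb⟩ := lebesgue_number_lemma_of_metric hCc hWo hcovW
  obtain ⟨R, hR⟩ := hCc.isBounded.exists_norm_le
  have hR' : ∀ x ∈ C, ∀ i, |inner ℝ x (n i)| ≤ R := by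
    intro x hx i
    calc |inner ℝ x (n i)| ≤ ‖x‖ * ‖n i‖ := abs_real_inner_le_norm _ _
      _ = ‖x‖ := by rw [hn i, mul_one]
      _ ≤ R := hR x hx
  let K₁ : ℤ := ⌊(-R) / η⌋
  let K₂ : ℤ := ⌊R / η⌋
  let F : ι → Finset ℤ := fun i => (Finset.Icc K₁ K₂).filter (fun k => gcell η k ⊆ O i)
  have hFcard : ∀ i, ((F i).card : ℝ) * η ≤ β i := by
    intro i
    have h1 : volume (⋃ k ∈ F i, gcell η k) = ∑ k ∈ F i, volume (gcell η k) := by
      apply measure_biUnion_finset
      · intro k _ l _ hkl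
        exact gcell_disjoint hηpos hkl
      · intro k _
        exact measurableSet_Ico
    have h2 : volume (⋃ k ∈ F i, gcell η k) ≤ volume (O i) := by
      apply measure_mono
      intro x hx
      simp only [Set.mem_iUnion] at hx
      obtain ⟨k, hk, hxk⟩ := hx
      exact (Finset.mem_filter.mp hk).2 hxk
    rw [h1] at h2
    simp only [volume_gcell, Finset.sum_const, nsmul_eq_mul] at h2
    have h3 := ENNReal.toReal_mono (hOfin i) h2
    simpa [ENNReal.toReal_ofReal hηpos.le] using h3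
  -- the finite family of planks
  let J := Σ i : ι, {k : ℤ // k ∈ F i}
  have hJcard : (Fintype.card J : ℝ) * η < w := by
    have h1 : (Fintype.card J : ℝ) = ∑ i, ((F i).card : ℝ) := by
      simp [J, Fintype.card_sigma]
    rw [h1, Finset.sum_mul]
    exact lt_of_le_of_lt (Finset.sum_le_sum fun i _ => hFcard i) hsumβ
  set Nj : ℝ := (Fintype.card J : ℝ) with hNj
  have hNj0 : 0 ≤ Nj := by positivity
  set ε₂ : ℝ := (w - Nj * η) / (2 * (Nj + 1)) with hε₂
  have hε₂pos : 0 < ε₂ := by
    apply div_pos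
    · linarith
    · positivity
  set θ₀ : ℝ := η / 2 + ε₂ with hθ₀
  have hθ₀pos : 0 < θ₀ := by positivity
  have hsumθ : ∑ _j : J, 2 * θ₀ ≤ w := by
    simp only [Finset.sum_const, Finset.card_univ, nsmul_eq_mul]
    have h1 : Nj * (2 * ε₂) = Nj * (w - Nj * η) / (Nj + 1) := by
      rw [hε₂]; field_simp
    have h2 : Nj * (w - Nj * η) / (Nj + 1) ≤ w - Nj * η := by
      rw [div_le_iff₀ (by positivity)]
      nlinarith
    have h3 : Nj * (2 * θ₀) = Nj * η + Nj * (2 * ε₂) := by
      rw [hθ₀]; ring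
    rw [← hNj, h3, h1]
    linarith
  obtain ⟨x, hxC, hx⟩ := bang_planks hCc hCv hne (fun j : J => n j.1) (fun j => hn j.1)
    (fun j : J => ((j.2.1 : ℝ) + 1 / 2) * η) (fun _ : J => θ₀) (fun _ => hθ₀pos.le) w hw hsumθ
  obtain ⟨i, hi⟩ := hleb x hxC
  set r : ℝ := inner ℝ x (n i) with hr
  set k : ℤ := ⌊r / η⌋ with hk
  have hk1 : (k : ℝ) * η ≤ r := by
    have := Int.floor_le (r / η)
    rwa [le_div_iff₀ hηpos] at this
  have hk2 : r < ((k : ℝ) + 1) * η := by
    have := Int.lt_floor_add_one (r / η)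
    rwa [div_lt_iff₀ hηpos] at this
  have hcell : gcell η k ⊆ O i := by
    rintro r' ⟨h1, h2⟩
    have hpt : x + (r' - r) • n i ∈ Metric.ball x η := by
      rw [Metric.mem_ball, dist_eq_norm]
      simp only [add_sub_cancel_left, norm_smul, hn i, mul_one, Real.norm_eq_abs]
      rw [abs_lt]
      constructor <;> nlinarith
    have hpi := hi hpt
    have hval : inner ℝ (x + (r' - r) • n i) (n i) = r' := by
      rw [inner_add_left, inner_smul_left, real_inner_self_eq_norm_sq, hn i, ← hr]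
      simp
    simpa [hval] using hpi
  have hkmem : k ∈ F i := by
    refine Finset.mem_filter.mpr ⟨Finset.mem_Icc.mpr ⟨?_, ?_⟩, hcell⟩
    · apply Int.floor_le_floor
      have := abs_le.mp (hR' x hxC i)
      exact div_le_div_of_nonneg_right this.1 hηpos.le
    · apply Int.floor_le_floor
      have := abs_le.mp (hR' x hxC i)
      exact div_le_div_of_nonneg_right this.2 hηpos.le
  have hbad := hx ⟨i, ⟨k, hkmem⟩⟩
  simp only at hbad
  have hclose : |r - ((k : ℝ) + 1 / 2) * η| ≤ η / 2 := by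
    rw [abs_le]
    constructor <;> nlinarith
  rw [← hr] at hbad
  linarith

end Vale.Agent.P243
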