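import Mathlib

/-!
Coordinates, squared distance, the variance sets and the tent over a planar base.
-/

open MeasureTheory Set
open scoped ENNReal Pointwise

namespace Vale.Agent.P243.Core

/-- The horizontal plane, with its sup norm and Lebesgue measure. -/
abbrev Y := ℝ × ℝ

/-- Three space in coordinates: horizontal part and height. -/
abbrev W := Y × ℝ

/-- The squared Euclidean distance on three space in coordinates. -/
def d2 (x x' : W) : ℝ :=
  (x.1.1 - x'.1.1) ^ 2 + (x.1.2 - x'.1.2) ^ 2 + (x.2 - x'.2) ^ 2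

/-- The squared Euclidean norm on the plane. -/
def N2 (y : Y) : ℝ := y.1 ^ 2 + y.2 ^ 2

lemma d2_nonneg (x x' : W) : 0 ≤ d2 x x' := by
  unfold d2; positivity

lemma continuous_d2 : Continuous (fun p : W × W => d2 p.1 p.2) := by
  unfold d2; fun_prop

/-- The weighted sum of squared distances of a three point representation. -/
def pairVar (α β γ : ℝ) (u v w : W) : ℝ :=
  α * β * d2 u v + α * γ * d2 u w + β * γ * d2 v w

/-- The set of points of `K` having a three point representation with variance at least `ν`. -/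
def varSet (K : Set W) (ν : ℝ) : Set W :=
  {x | ∃ (α β γ : ℝ) (u v w : W), 0 ≤ α ∧ 0 ≤ β ∧ 0 ≤ γ ∧ α + β + γ = 1 ∧ u ∈ K ∧ v ∈ K ∧ w ∈ K ∧
    x = α • u + β • v + γ • w ∧ ν ≤ pairVar α β γ u v w}

lemma varSet_subset {K : Set W} (hKv : Convex ℝ K) (ν : ℝ) : varSet K ν ⊆ K := by
  rintro x ⟨α, β, γ, u, v, w, hα, hβ, hγ, hsum, hu, hv, hw, rfl, -⟩
  have h := (convex_iff_sum_mem.mp hKv)
  have h1 : α • u + β • v ∈ (1 - γ) • K ∨ True := Or.inr trivial
  clear h1 h
  rcases eq_or_lt_of_le hγ with h0 | h0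
  · subst h0
    have : α + β = 1 := by linarith
    simpa using hKv hu hv hα hβ this
  · -- first combine `u, v`, then with `w`
    rcases eq_or_lt_of_le (add_nonneg hα hβ) with h1 | h1
    · have ha : α = 0 := by linarith
      have hb : β = 0 := by linarith
      have hc : γ = 1 := by linarith
      subst ha hb hc
      simpa using hw
    · set c := α + β with hc
      have hm : (α / c) • u + (β / c) • v ∈ K :=
        hKv hu hv (div_nonneg hα h1.le) (div_nonneg hβ h1.le) (by field_simp; simp [hc])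
      have hfin := hKv hm hw h1.le hγ (by linarith)
      have : c • ((α / c) • u + (β / c) • v) + γ • w = α • u + β • v + γ • w := by
        rw [smul_add, smul_smul, smul_smul]
        congr 2 <;> field_simp
      rwa [this] at hfin

/-- The algebraic identity behind the diameter bound for variance sets. -/
lemma d2_rep (α β γ α' β' γ' : ℝ) (u v w u' v' w' : W) (h : α + β + γ = 1) (h' : α' + β' + γ' = 1) :
    d2 (α • u + β • v + γ • w) (α' • u' + β' • v' + γ' • w') =
      α * α' * d2 u u' + α * β' * d2 u v' + α * γ' * d2 u w'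
      + β * α' * d2 v u' + β * β' * d2 v v' + β * γ' * d2 v w'
      + γ * α' * d2 w u' + γ * β' * d2 w v' + γ * γ' * d2 w w'
      - pairVar α β γ u v w - pairVar α' β' γ' u' v' w' := by
  have hγ : γ = 1 - α - β := by linarith
  have hγ' : γ' = 1 - α' - β' := by linarith
  subst hγ hγ'
  simp only [d2, pairVar, Prod.fst_add, Prod.snd_add, Prod.smul_fst, Prod.smul_snd, smul_eq_mul]
  ring

/-- Two points of a variance set are close. -/
lemma d2_varSet_le {K : Set W} (hd : ∀ x ∈ K, ∀ x' ∈ K, d2 x x' ≤ 1) {ν : ℝ} {x x' : W}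
    (hx : x ∈ varSet K ν) (hx' : x' ∈ varSet K ν) : d2 x x' ≤ 1 - 2 * ν := by
  obtain ⟨α, β, γ, u, v, w, hα, hβ, hγ, hs, hu, hv, hw, rfl, hV⟩ := hx
  obtain ⟨α', β', γ', u', v', w', hα', hβ', hγ', hs', hu', hv', hw', rfl, hV'⟩ := hx'
  rw [d2_rep _ _ _ _ _ _ _ _ _ _ _ _ hs hs']
  have hsum : α * α' * d2 u u' + α * β' * d2 u v' + α * γ' * d2 u w'
      + β * α' * d2 v u' + β * β' * d2 v v' + β * γ' * d2 v w'
      + γ * α' * d2 w u' + γ * β' * d2 w v' + γ * γ' * d2 w w' ≤ 1 := by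
    have h1 : ∀ a b : ℝ, 0 ≤ a → 0 ≤ b → ∀ p q : W, p ∈ K → q ∈ K → a * b * d2 p q ≤ a * b := by
      intro a b ha hb p q hp hq
      have := hd p hp q hq
      have h2 : 0 ≤ a * b := mul_nonneg ha hb
      nlinarith
    have e : α * α' + α * β' + α * γ' + β * α' + β * β' + β * γ' + γ * α' + γ * β' + γ * γ' = 1 := by
      have : (α + β + γ) * (α' + β' + γ') = 1 := by rw [hs, hs']; norm_num
      linarith
    have a1 := h1 α α' hα hα' u u' hu hu'
    have a2 := h1 α β' hα hβ' u v' hu hv'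
    have a3 := h1 α γ' hα hγ' u w' hu hw'
    have a4 := h1 β α' hβ hα' v u' hv hu'
    have a5 := h1 β β' hβ hβ' v v' hv hv'
    have a6 := h1 β γ' hβ hγ' v w' hv hw'
    have a7 := h1 γ α' hγ hα' w u' hw hu'
    have a8 := h1 γ β' hγ hβ' w v' hw hv'
    have a9 := h1 γ γ' hγ hγ' w w' hw hw'
    linarith
  linarith

/-- Variance sets of compact sets are compact. -/
lemma isCompact_varSet {K : Set W} (hKc : IsCompact K) (ν : ℝ) : IsCompact (varSet K ν) := by
  let I : Set ℝ := Icc 0 1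
  let P : Set (ℝ × ℝ × ℝ × W × W × W) := I ×ˢ I ×ˢ I ×ˢ K ×ˢ K ×ˢ K
  have hP : IsCompact P :=
    isCompact_Icc.prod (isCompact_Icc.prod (isCompact_Icc.prod (hKc.prod (hKc.prod hKc))))
  let C : Set (ℝ × ℝ × ℝ × W × W × W) :=
    {p | p.1 + p.2.1 + p.2.2.1 = 1 ∧
      ν ≤ pairVar p.1 p.2.1 p.2.2.1 p.2.2.2.1 p.2.2.2.2.1 p.2.2.2.2.2}
  have hcont : Continuous (fun p : ℝ × ℝ × ℝ × W × W × W =>
      pairVar p.1 p.2.1 p.2.2.1 p.2.2.2.1 p.2.2.2.2.1 p.2.2.2.2.2) := by
    unfold pairVar d2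
    fun_prop
  have hC : IsClosed C := by
    apply IsClosed.inter
    · exact isClosed_eq (by fun_prop) continuous_const
    · exact isClosed_le continuous_const hcont
  have hQ : IsCompact (P ∩ C) := hP.inter_right hC
  let g : ℝ × ℝ × ℝ × W × W × W → W := fun p =>
    p.1 • p.2.2.2.1 + p.2.1 • p.2.2.2.2.1 + p.2.2.1 • p.2.2.2.2.2
  have hg : Continuous g := by fun_prop
  have himg : varSet K ν = g '' (P ∩ C) := by
    ext x
    constructor
    · rintro ⟨α, β, γ, u, v, w, hα, hβ, hγ, hs, hu, hv, hw, rfl, hV⟩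
      refine ⟨(α, β, γ, u, v, w), ⟨⟨⟨hα, by linarith⟩, ⟨hβ, by linarith⟩, ⟨hγ, by linarith⟩,
        hu, hv, hw⟩, hs, hV⟩, rfl⟩
    · rintro ⟨⟨α, β, γ, u, v, w⟩, ⟨⟨hα, hβ, hγ, hu, hv, hw⟩, hs, hV⟩, rfl⟩
      exact ⟨α, β, γ, u, v, w, hα.1, hβ.1, hγ.1, hs, hu, hv, hw, rfl, hV⟩
  rw [himg]
  exact hQ.image hg

end Vale.Agent.P243.Core
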