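import Vale.Agent.P243.Core1

/-!
The tent over a planar base: its volume, and the comparison of its fibres with those of
variance sets.
-/

open MeasureTheory Set
open scoped ENNReal Pointwise

namespace Vale.Agent.P243.Core

/-- The horizontal shadow of a set in three space. -/
def Om (K : Set W) : Set Y := Prod.fst '' K

/-- The tent over a planar set: at height `ζ` its section is the dilate by `1 - ζ`. -/
def tent (Ω : Set Y) : Set W := {x | x.2 ∈ Icc (0 : ℝ) 1 ∧ x.1 ∈ (1 - x.2) • Ω}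

lemma tent_eq_image (Ω : Set Y) :
    tent Ω = (fun p : Y × ℝ => ((1 - p.2) • p.1, p.2)) '' (Ω ×ˢ Icc (0 : ℝ) 1) := by
  ext ⟨y, ζ⟩
  constructor
  · rintro ⟨h1, b, hb, h2⟩
    exact ⟨(b, ζ), ⟨hb, h1⟩, by simpa using h2⟩
  · rintro ⟨⟨b, ζ'⟩, ⟨hb, h1⟩, h⟩
    simp only [Prod.mk.injEq] at h
    obtain ⟨rfl, rfl⟩ := h
    exact ⟨h1, b, hb, rfl⟩

lemma isCompact_tent {Ω : Set Y} (hΩ : IsCompact Ω) : IsCompact (tent Ω) := by
  rw [tent_eq_image]
  exact (hΩ.prod isCompact_Icc).image (by fun_prop)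

lemma integral_tent_profile :
    ∫⁻ ζ in Icc (0 : ℝ) 1, ENNReal.ofReal ((1 - ζ) ^ 2) = ENNReal.ofReal (1 / 3) := by
  have hI : ∫ ζ in Icc (0 : ℝ) 1, (1 - ζ) ^ 2 = 1 / 3 := by
    rw [integral_Icc_eq_integral_Ioc, ← intervalIntegral.integral_of_le (by norm_num)]
    have : ∀ ζ : ℝ, (1 - ζ) ^ 2 = 1 - 2 * ζ + ζ ^ 2 := fun ζ => by ring
    simp only [this]
    rw [intervalIntegral.integral_add, intervalIntegral.integral_sub]
    · have h2 : ∫ x in (0 : ℝ)..1, 2 * x = 1 := by
        rw [intervalIntegral.integral_const_mul]; simp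
      rw [h2]; simp; norm_num
    · exact Continuous.intervalIntegrable (by fun_prop) _ _
    · exact Continuous.intervalIntegrable (by fun_prop) _ _
    · exact Continuous.intervalIntegrable (by fun_prop) _ _
    · exact Continuous.intervalIntegrable (by fun_prop) _ _
  rw [← hI, ofReal_integral_eq_lintegral_ofReal]
  · apply Continuous.integrableOn_Icc (by fun_prop)
  · exact Filter.Eventually.of_forall (fun ζ => by positivity)

lemma volume_smul_Y (r : ℝ) (s : Set Y) :
    volume (r • s) = ENNReal.ofReal (r ^ 2) * volume s := by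
  rw [Measure.addHaar_smul]
  have : Module.finrank ℝ Y = 2 := by simp
  rw [this, abs_of_nonneg (by positivity)]

/-- The tent has volume one third of the base area. -/
lemma volume_tent {Ω : Set Y} (hΩ : IsCompact Ω) :
    volume (tent Ω) = ENNReal.ofReal (1 / 3) * volume Ω := by
  have hT : MeasurableSet (tent Ω) := (isCompact_tent hΩ).isClosed.measurableSet
  rw [Measure.volume_eq_prod, Measure.prod_apply_symm hT, 
    ← integral_tent_profile, ← lintegral_mul_const _ (by fun_prop), ← lintegral_indicator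
      measurableSet_Icc]
  apply lintegral_congr
  intro ζ
  by_cases hζ : ζ ∈ Icc (0 : ℝ) 1
  · rw [indicator_of_mem hζ, ← volume_smul_Y]
    congr 1
    ext y
    constructor
    · rintro ⟨-, h⟩
      exact h
    · intro h
      exact ⟨hζ, h⟩
  · rw [indicator_of_notMem hζ]
    have : (fun x : Y => (x, ζ)) ⁻¹' tent Ω = ∅ := by
      ext y
      simp only [mem_preimage, mem_empty_iff_false, iff_false]
      rintro ⟨h, -⟩
      exact hζ h
    rw [this, measure_empty]

lemma zero_mem_Om {K : Set W} {L : ℝ} (hp : (((0 : Y), L) : W) ∈ K) : (0 : Y) ∈ Om K :=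
  ⟨_, hp, rfl⟩

lemma convex_Om {K : Set W} (hK : Convex ℝ K) : Convex ℝ (Om K) :=
  hK.linear_image (LinearMap.fst ℝ Y ℝ)

lemma isCompact_Om {K : Set W} (hK : IsCompact K) : IsCompact (Om K) :=
  hK.image continuous_fst

/-- Dilates of a convex set containing the origin are nested. -/
lemma smul_subset_smul_of_le {Ω : Set Y} (hv : Convex ℝ Ω) (h0 : (0 : Y) ∈ Ω) {r t : ℝ}
    (hr : 0 ≤ r) (hrt : r ≤ t) : r • Ω ⊆ t • Ω := by
  rcases eq_or_lt_of_le (hr.trans hrt) with ht | ht
  · have hr0 : r = 0 := by linarith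
    subst ht hr0
    exact subset_rfl
  · rintro _ ⟨b, hb, rfl⟩
    refine ⟨(r / t) • b, hv.smul_mem_of_zero_mem h0 hb ⟨by positivity, ?_⟩, ?_⟩
    · rw [div_le_one ht]; exact hrt
    · simp only [smul_smul]
      congr 1
      field_simp

/-- Mixing a point with the axis stays in the body. -/
lemma mix_mem {K : Set W} (hK : Convex ℝ K) {L : ℝ} (hp : (((0 : Y), (0 : ℝ)) : W) ∈ K)
    (hq : (((0 : Y), L) : W) ∈ K) {b : Y} {h : ℝ} (hb : (b, h) ∈ K) {ζ s τ : ℝ}
    (hζ : 0 ≤ ζ) (hs : 0 ≤ s) (hsum : ζ + s = 1) (hτ0 : 0 ≤ τ) (hτ1 : τ ≤ 1) :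
    ((s • b, ζ * τ * L + s * h) : W) ∈ K := by
  have h1 : (((0 : Y), τ * L) : W) ∈ K := by
    have := hK hp hq (sub_nonneg.mpr hτ1) hτ0 (by ring)
    simpa using this
  have h2 := hK h1 hb hζ hs hsum
  convert h2 using 1
  simp only [Prod.smul_mk, Prod.mk_add_mk, smul_zero, zero_add, smul_eq_mul]
  congr 1
  ring

/-- The variance of the three point representation built from the axis. -/
lemma pairVar_axis (b : Y) (h ζ s τ : ℝ) (hsum : ζ + s = 1) :
    pairVar (ζ * (1 - τ)) (ζ * τ) s ((0 : Y), (0 : ℝ)) ((0 : Y), (1 : ℝ)) (b, h) =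
      ζ * τ * (1 - τ) + ζ * s * (N2 b + (h - τ) ^ 2) := by
  have : s = 1 - ζ := by linarith
  subst this
  simp only [pairVar, d2, N2]
  simp
  ring

/-- Mixing a point with the unit axis lies in the variance set. -/
lemma mix_mem_varSet {K : Set W} (hp : (((0 : Y), (0 : ℝ)) : W) ∈ K)
    (hq : (((0 : Y), (1 : ℝ)) : W) ∈ K) {b : Y} {h : ℝ} (hb : (b, h) ∈ K) {ζ s τ ν : ℝ}
    (hζ : 0 ≤ ζ) (hs : 0 ≤ s) (hsum : ζ + s = 1) (hτ0 : 0 ≤ τ) (hτ1 : τ ≤ 1)
    (hν : ν ≤ ζ * τ * (1 - τ) + ζ * s * (N2 b + (h - τ) ^ 2)) :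
    ((s • b, ζ * τ + s * h) : W) ∈ varSet K ν := by
  refine ⟨ζ * (1 - τ), ζ * τ, s, (0, 0), (0, 1), (b, h), mul_nonneg hζ (by linarith),
    mul_nonneg hζ hτ0, hs, by linarith [mul_sub ζ 1 τ], hp, hq, hb, ?_, ?_⟩
  · simp only [Prod.smul_mk, Prod.mk_add_mk, smul_zero, zero_add, smul_eq_mul, mul_zero, mul_one]
  · rw [pairVar_axis b h ζ s τ hsum]
    exact hν

lemma N2_nonneg (b : Y) : 0 ≤ N2 b := by unfold N2; positivity

lemma norm_sq_le_N2 (b : Y) : ‖b‖ ^ 2 ≤ N2 b := by
  unfold N2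
  rw [Prod.norm_def]
  simp only [Real.norm_eq_abs]
  rcases max_cases |b.1| |b.2| with ⟨h, -⟩ | ⟨h, -⟩ <;> rw [h, sq_abs] <;> nlinarith [sq_nonneg b.1, sq_nonneg b.2]

/-- The structure of a fibre of the tent over the shadow. -/
lemma tent_fiber {K : Set W} (hKc : IsCompact K) {y : Y} (hy : y ∈ Om K) :
    ∃ (ζ s : ℝ) (b : Y) (h : ℝ), (b, h) ∈ K ∧ 0 ≤ ζ ∧ 0 ≤ s ∧ ζ + s = 1 ∧ y = s • b ∧
      Prod.mk y ⁻¹' tent (Om K) ⊆ Icc 0 ζ := by
  have hT : IsCompact (tent (Om K)) := isCompact_tent (isCompact_Om hKc)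
  have hsub : Prod.mk y ⁻¹' tent (Om K) ⊆ Icc 0 1 := fun ζ hζ => hζ.1
  have hC : IsCompact (Prod.mk y ⁻¹' tent (Om K)) :=
    isCompact_Icc.of_isClosed_subset (hT.isClosed.preimage (by fun_prop)) hsub
  have hne : (Prod.mk y ⁻¹' tent (Om K)).Nonempty :=
    ⟨0, ⟨by norm_num, y, hy, by simp⟩⟩
  obtain ⟨ζ, hζ, hmax⟩ := hC.exists_isGreatest hne
  obtain ⟨hζ01, b, ⟨⟨b', h⟩, hbK, rfl⟩, hyb⟩ := hζ
  refine ⟨ζ, 1 - ζ, b', h, hbK, hζ01.1, by linarith [hζ01.2], by ring, ?_, ?_⟩
  · simpa using hyb.symm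
  · intro t ht
    exact ⟨(hsub ht).1, hmax ht⟩

/-- Away from the origin a fibre endpoint gives a lower bound for the norm of the apex data. -/
lemma tent_fiber_outside {Ω : Set Y} (hv : Convex ℝ Ω) (h0 : (0 : Y) ∈ Ω) {y : Y} (hy : y ∈ Ω → False) :
    Prod.mk y ⁻¹' tent Ω = ∅ := by
  ext ζ
  simp only [mem_preimage, mem_empty_iff_false, iff_false]
  rintro ⟨h1, h2⟩
  apply hy
  have := smul_subset_smul_of_le hv h0 (r := 1 - ζ) (t := 1) (by linarith [h1.2]) (by linarith [h1.1]) h2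
  simpa using this

/-- Comparison of the tent and a variance set. -/
theorem tent_le_varSet {K : Set W} (hKc : IsCompact K) (hKv : Convex ℝ K)
    (hp : (((0 : Y), (0 : ℝ)) : W) ∈ K) (hq : (((0 : Y), (1 : ℝ)) : W) ∈ K)
    {ν : ℝ} (hν : 0 ≤ ν) {Bad : Set Y} (hBad : MeasurableSet Bad)
    (hgood : ∀ y ∈ Om K, y ∉ Bad → ∀ (ζ s : ℝ) (b : Y), b ∈ Om K → 0 ≤ ζ → 0 ≤ s → ζ + s = 1 →
      y = s • b → Prod.mk y ⁻¹' tent (Om K) ⊆ Icc 0 ζ → ν ≤ ζ * s * N2 b) :
    volume (tent (Om K)) ≤ volume (varSet K ν) + ENNReal.ofReal (4 * ν) * volume Bad := by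
  have h0 : (0 : Y) ∈ Om K := zero_mem_Om hp
  have hTm : MeasurableSet (tent (Om K)) :=
    (isCompact_tent (isCompact_Om hKc)).isClosed.measurableSet
  have hSm : MeasurableSet (varSet K ν) := (isCompact_varSet hKc ν).isClosed.measurableSet
  rw [Measure.volume_eq_prod, Measure.prod_apply hTm, Measure.prod_apply hSm,
    ← lintegral_indicator_const hBad, ← lintegral_add_left
      (measurable_measure_prodMk_left hSm)]
  apply lintegral_mono
  intro y
  show volume (Prod.mk y ⁻¹' tent (Om K)) ≤ volume (Prod.mk y ⁻¹' varSet K ν) +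
    Bad.indicator (fun _ => ENNReal.ofReal (4 * ν)) y
  by_cases hy : y ∈ Om K
  · obtain ⟨ζ, s, b, h, hbK, hζ, hs, hsum, hyb, hsub⟩ := tent_fiber hKc hy
    have hle : volume (Prod.mk y ⁻¹' tent (Om K)) ≤ ENNReal.ofReal ζ := by
      calc _ ≤ volume (Icc 0 ζ) := measure_mono hsub
        _ = _ := by simp
    by_cases hyB : y ∈ Bad
    · rw [indicator_of_mem hyB]
      by_cases hζν : ζ ≤ 4 * ν
      · calc _ ≤ ENNReal.ofReal ζ := hle
          _ ≤ ENNReal.ofReal (4 * ν) := ENNReal.ofReal_le_ofReal hζν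
          _ ≤ _ := le_add_self
      · push Not at hζν
        have hζpos : 0 < ζ := by linarith
        set τ₀ := 2 * ν / ζ with hτ₀
        have hτ₀0 : 0 ≤ τ₀ := by positivity
        have hτ₀1 : τ₀ ≤ 1 / 2 := by
          rw [hτ₀, div_le_iff₀ hζpos]; linarith
        have hζτ : ζ * τ₀ = 2 * ν := by rw [hτ₀]; field_simp
        have hsubS : Icc (s * h + ζ * τ₀) (s * h + ζ * (1 - τ₀)) ⊆ Prod.mk y ⁻¹' varSet K ν := by
          intro c hc
          set τ := (c - s * h) / ζ with hτ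
          have hcτ : c = ζ * τ + s * h := by rw [hτ]; field_simp; ring
          have hτ1 : τ₀ ≤ τ := by
            rw [hτ, le_div_iff₀ hζpos]; nlinarith [hc.1]
          have hτ2 : τ ≤ 1 - τ₀ := by
            rw [hτ, div_le_iff₀ hζpos]; nlinarith [hc.2]
          rw [mem_preimage, hcτ, hyb]
          apply mix_mem_varSet hp hq hbK hζ hs hsum (by linarith) (by linarith)
          have hA : 0 ≤ ζ * s * (N2 b + (h - τ) ^ 2) :=
            mul_nonneg (mul_nonneg hζ hs) (add_nonneg (N2_nonneg b) (sq_nonneg _))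
          have hB : ν ≤ ζ * τ * (1 - τ) := by
            have h1 : τ₀ * (1 - τ₀) ≤ τ * (1 - τ) := by nlinarith
            have h2 : ζ * (τ₀ * (1 - τ₀)) ≤ ζ * (τ * (1 - τ)) := mul_le_mul_of_nonneg_left h1 hζ
            have h3 : ζ * (τ₀ * (1 - τ₀)) = 2 * ν * (1 - τ₀) := by rw [← hζτ]; ring
            nlinarith
          linarith
        have hvol : ENNReal.ofReal (ζ - 4 * ν) ≤ volume (Prod.mk y ⁻¹' varSet K ν) := by
          calc _ = volume (Icc (s * h + ζ * τ₀) (s * h + ζ * (1 - τ₀))) := by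
                rw [Real.volume_Icc]
                congr 1
                nlinarith
            _ ≤ _ := measure_mono hsubS
        calc _ ≤ ENNReal.ofReal ζ := hle
          _ = ENNReal.ofReal (ζ - 4 * ν) + ENNReal.ofReal (4 * ν) := by
              rw [← ENNReal.ofReal_add (by linarith) (by linarith)]
              congr 1; ring
          _ ≤ _ := add_le_add hvol le_rfl
    · rw [indicator_of_notMem hyB, add_zero]
      have hνb := hgood y hy hyB ζ s b ⟨_, hbK, rfl⟩ hζ hs hsum hyb hsub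
      have hsubS : Icc (s * h) (s * h + ζ) ⊆ Prod.mk y ⁻¹' varSet K ν := by
        intro c hc
        rcases eq_or_lt_of_le hζ with hz | hζpos
        · subst hz
          have hc' : c = 0 * 0 + s * h := by
            have := hc.1; have := hc.2; linarith
          rw [mem_preimage, hc', hyb]
          apply mix_mem_varSet hp hq hbK le_rfl hs hsum le_rfl zero_le_one
          simpa using (by simpa using hνb : ν ≤ 0)
        · set τ := (c - s * h) / ζ with hτ
          have hcτ : c = ζ * τ + s * h := by rw [hτ]; field_simp; ring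
          have hτ1 : 0 ≤ τ := by
            rw [hτ]; exact div_nonneg (by linarith [hc.1]) hζ
          have hτ2 : τ ≤ 1 := by
            rw [hτ, div_le_iff₀ hζpos]; linarith [hc.2]
          rw [mem_preimage, hcτ, hyb]
          apply mix_mem_varSet hp hq hbK hζ hs hsum hτ1 hτ2
          have hA : 0 ≤ ζ * τ * (1 - τ) :=
            mul_nonneg (mul_nonneg hζ hτ1) (by linarith)
          have hB : ζ * s * N2 b ≤ ζ * s * (N2 b + (h - τ) ^ 2) :=
            mul_le_mul_of_nonneg_left (by nlinarith [sq_nonneg (h - τ)]) (mul_nonneg hζ hs)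
          linarith
      calc _ ≤ ENNReal.ofReal ζ := hle
        _ = volume (Icc (s * h) (s * h + ζ)) := by
            rw [Real.volume_Icc]; congr 1; ring
        _ ≤ _ := measure_mono hsubS
  · rw [tent_fiber_outside (convex_Om hKv) h0 hy, measure_empty]
    exact zero_le

/-- Test hypothesis: compact subsets of `K` have volume controlled by their diameter. -/
def Tst (K : Set W) (Z : ℝ) : Prop :=
  ∀ S : Set W, IsCompact S → S ⊆ K → ∀ X : ℝ, 0 ≤ X → (∀ x ∈ S, ∀ x' ∈ S, d2 x x' ≤ X ^ 2) →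
    volume S ≤ ENNReal.ofReal (X * Z)

/-- Near the origin a far away point of a convex set leaves room for many disjoint copies. -/
lemma copies {Ω : Set Y} (hΩc : IsCompact Ω) (hΩv : Convex ℝ Ω) {p₀ : ℝ} (hp₀ : 0 < p₀)
    {ystar : Y} (hy : ystar ∈ Ω) (hfar : 512 * p₀ ≤ ‖ystar‖) :
    ENNReal.ofReal 32 * volume (Ω ∩ Metric.ball (0 : Y) p₀) ≤ volume Ω := by
  set W₀ := Ω ∩ Metric.ball (0 : Y) p₀ with hW₀
  have hW₀m : MeasurableSet W₀ := hΩc.isClosed.measurableSet.inter measurableSet_ball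
  let τ : ℕ → ℝ := fun k => 1 - k / 256
  let c : ℕ → Y := fun k => ((k : ℝ) / 256) • ystar
  let copy : ℕ → Set Y := fun k => (fun x => c k + x) '' (τ k • W₀)
  have hτ1 : ∀ k ∈ Finset.range 128, 1 / 2 ≤ τ k ∧ τ k ≤ 1 := by
    intro k hk
    have hk' : (k : ℝ) ≤ 128 := by
      have := Finset.mem_range.mp hk
      exact_mod_cast this.le
    have hk0 : (0 : ℝ) ≤ k := by positivity
    simp only [τ]
    constructor <;> linarith
  have hτm : ∀ k ∈ Finset.range 128, τ k ≠ 0 := by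
    intro k hk
    have := (hτ1 k hk).1
    intro h
    rw [h] at this
    norm_num at this
  have hvol : ∀ k ∈ Finset.range 128, ENNReal.ofReal (1 / 4) * volume W₀ ≤ volume (copy k) := by
    intro k hk
    simp only [copy]
    rw [image_add_left, measure_preimage_add, volume_smul_Y]
    gcongr
    have := (hτ1 k hk).1
    nlinarith
  have hsub : (⋃ k ∈ Finset.range 128, copy k) ⊆ Ω := by
    intro x hx
    simp only [mem_iUnion] at hx
    obtain ⟨k, hk, x', ⟨w, hw, rfl⟩, rfl⟩ := hx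
    have h1 := hτ1 k hk
    have h2 := hΩv hy hw.1 (a := 1 - τ k) (b := τ k) (by linarith) (by linarith) (by ring)
    convert h2 using 1
    simp only [c, τ]
    congr 2
    ring
  have hdisj : (Finset.range 128 : Set ℕ).PairwiseDisjoint copy := by
    intro j hj k hk hjk
    have hj' := Finset.mem_coe.mp hj
    have hk' := Finset.mem_coe.mp hk
    rw [Function.onFun, Set.disjoint_left]
    rintro x ⟨x1, ⟨w1, hw1, rfl⟩, rfl⟩ ⟨x2, ⟨w2, hw2, rfl⟩, h⟩
    have h' : c k + τ k • w2 = c j + τ j • w1 := h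
    have hkey : c j - c k = τ k • w2 - τ j • w1 := by
      rw [sub_eq_sub_iff_add_eq_add]
      rw [add_comm (c j), add_comm (c k)] at *
      exact h'.symm
    have hn1 : ‖w1‖ < p₀ := by simpa using hw1.2
    have hn2 : ‖w2‖ < p₀ := by simpa using hw2.2
    have hupper : ‖c j - c k‖ < 2 * p₀ := by
      rw [hkey]
      have h1 := hτ1 j hj'
      have h2 := hτ1 k hk'
      calc ‖τ k • w2 - τ j • w1‖ ≤ ‖τ k • w2‖ + ‖τ j • w1‖ := norm_sub_le _ _
        _ = τ k * ‖w2‖ + τ j * ‖w1‖ := by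
            rw [norm_smul, norm_smul, Real.norm_of_nonneg (by linarith),
              Real.norm_of_nonneg (by linarith)]
        _ < 2 * p₀ := by nlinarith [norm_nonneg w1, norm_nonneg w2]
    have hlower : 2 * p₀ ≤ ‖c j - c k‖ := by
      have hcd : c j - c k = (((j : ℝ) - k) / 256) • ystar := by
        simp only [c]
        rw [← sub_smul]
        congr 1
        ring
      rw [hcd, norm_smul, Real.norm_eq_abs, abs_div]
      have hjk' : (1 : ℝ) ≤ |(j : ℝ) - k| := by
        have : (j : ℤ) - k ≠ 0 := by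
          intro h0
          apply hjk
          omega
        have h1 : (1 : ℤ) ≤ |(j : ℤ) - k| := Int.one_le_abs this
        have h2 : ((|(j : ℤ) - k| : ℤ) : ℝ) = |(j : ℝ) - k| := by push_cast; rfl
        rw [← h2]
        exact_mod_cast h1
      have h256 : |(256 : ℝ)| = 256 := by norm_num
      rw [h256]
      have : 1 / 256 * (512 * p₀) ≤ |(j : ℝ) - k| / 256 * ‖ystar‖ := by
        apply mul_le_mul (by linarith) hfar (by positivity) (by positivity)
      linarith
    linarith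
  have hmeas : ∀ k ∈ Finset.range 128, MeasurableSet (copy k) := by
    intro k hk
    simp only [copy]
    rw [image_add_left]
    apply (measurable_const_add _)
    exact hW₀m.const_smul_of_ne_zero (hτm k hk)
  calc ENNReal.ofReal 32 * volume W₀ = ∑ k ∈ Finset.range 128, ENNReal.ofReal (1 / 4) * volume W₀ := by
        rw [Finset.sum_const, Finset.card_range, nsmul_eq_mul, ← mul_assoc]
        congr 1
        rw [show ((128 : ℕ) : ENNReal) = ENNReal.ofReal 128 by norm_num,
          ← ENNReal.ofReal_mul (by norm_num)]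
        norm_num
    _ ≤ ∑ k ∈ Finset.range 128, volume (copy k) := Finset.sum_le_sum hvol
    _ = volume (⋃ k ∈ Finset.range 128, copy k) := (measure_biUnion_finset hdisj hmeas).symm
    _ ≤ volume Ω := measure_mono hsub

/-- The non thin case: a far away point of the shadow gives a definite gain. -/
theorem nonthin_bound {K : Set W} (hKc : IsCompact K) (hKv : Convex ℝ K)
    (hp : (((0 : Y), (0 : ℝ)) : W) ∈ K) (hq : (((0 : Y), (1 : ℝ)) : W) ∈ K)
    (hd : ∀ x ∈ K, ∀ x' ∈ K, d2 x x' ≤ 1) {Z : ℝ} (hZ0 : 0 ≤ Z) (hZ : Tst K Z)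
    {p₀ : ℝ} (hp₀ : 0 < p₀) (hp₀1 : p₀ ≤ 1) {x : W} (hx : x ∈ K) (hfar : 512 * p₀ ≤ ‖x.1‖) :
    (1 + p₀ ^ 2 / 1024) * ((volume (Om K)).toReal / 3) ≤ Z := by
  set ν : ℝ := p₀ ^ 2 / 512 with hνdef
  have hν0 : 0 < ν := by positivity
  have hν1 : ν ≤ 1 / 512 := by
    rw [hνdef]
    have : p₀ ^ 2 ≤ 1 := by nlinarith
    linarith
  set Ω := Om K with hΩ
  have hΩc : IsCompact Ω := isCompact_Om hKc
  have hΩv : Convex ℝ Ω := convex_Om hKv
  have h0 : (0 : Y) ∈ Ω := zero_mem_Om hp
  set A := (volume Ω).toReal with hA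
  have hA0 : 0 ≤ A := ENNReal.toReal_nonneg
  have hAe : volume Ω = ENNReal.ofReal A := by
    rw [hA, ENNReal.ofReal_toReal hΩc.measure_lt_top.ne]
  set ε : ℝ := 1 / 256 with hε
  let Bad : Set Y := (ε • Ω) ∪ (Ω \ ((1 - ε) • Ω)) ∪ (Ω ∩ Metric.ball (0 : Y) p₀)
  have hsmulm : ∀ r : ℝ, MeasurableSet (r • Ω) := fun r =>
    (hΩc.smul r).isClosed.measurableSet
  have hBadm : MeasurableSet Bad :=
    ((hsmulm _).union (hΩc.isClosed.measurableSet.diff (hsmulm _))).union
      (hΩc.isClosed.measurableSet.inter measurableSet_ball)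
  have hgood : ∀ y ∈ Om K, y ∉ Bad → ∀ (ζ s : ℝ) (b : Y), b ∈ Om K → 0 ≤ ζ → 0 ≤ s → ζ + s = 1 →
      y = s • b → Prod.mk y ⁻¹' tent (Om K) ⊆ Icc 0 ζ → ν ≤ ζ * s * N2 b := by
    intro y hy hyB ζ s b hb hζ hs hsum hyb hsub
    have h1 : y ∉ ε • Ω := fun h => hyB (Or.inl (Or.inl h))
    have h2 : y ∈ (1 - ε) • Ω := by
      by_contra h
      exact hyB (Or.inl (Or.inr ⟨hy, h⟩))
    have h3 : y ∉ Metric.ball (0 : Y) p₀ := fun h => hyB (Or.inr ⟨hy, h⟩)
    have hsε : ε < s := by
      by_contra h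
      push Not at h
      apply h1
      exact smul_subset_smul_of_le hΩv h0 hs h (by rw [hyb]; exact smul_mem_smul_set hb)
    have hεζ : ε ≤ ζ := by
      have : ε ∈ Prod.mk y ⁻¹' tent (Om K) := ⟨by rw [hε]; norm_num, h2⟩
      exact (hsub this).2
    have hnorm : p₀ ≤ ‖b‖ := by
      have h4 : p₀ ≤ ‖y‖ := by simpa using h3
      have h5 : ‖y‖ = s * ‖b‖ := by
        rw [hyb, norm_smul, Real.norm_of_nonneg hs]
      have hs1 : s ≤ 1 := by linarith
      nlinarith [norm_nonneg b]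
    have hN : p₀ ^ 2 ≤ N2 b := by
      calc p₀ ^ 2 ≤ ‖b‖ ^ 2 := by gcongr
        _ ≤ _ := norm_sq_le_N2 b
    have hζs : 1 / 512 ≤ ζ * s := by
      have : s = 1 - ζ := by linarith
      rw [this]
      have h6 : ζ ≤ 1 - ε := by linarith
      rw [hε] at hεζ h6
      nlinarith
    calc ν = 1 / 512 * p₀ ^ 2 := by rw [hνdef]; ring
      _ ≤ ζ * s * N2 b := by
          apply mul_le_mul hζs hN (by positivity) (mul_nonneg hζ hs)
  have hmain := tent_le_varSet hKc hKv hp hq hν0.le hBadm hgood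
  -- the variance set is tested with a smaller diameter
  have hS : volume (varSet K ν) ≤ ENNReal.ofReal ((1 - ν) * Z) := by
    apply hZ _ (isCompact_varSet hKc ν) (varSet_subset hKv ν) _ (by linarith)
    intro u hu u' hu'
    have := d2_varSet_le hd hu hu'
    nlinarith [sq_nonneg ν]
  -- the bad set is small
  have hBadle : volume Bad ≤ ENNReal.ofReal (5 / 128 * A) := by
    have h1 : volume (ε • Ω) = ENNReal.ofReal (ε ^ 2 * A) := by
      rw [volume_smul_Y, hAe, ENNReal.ofReal_mul (by positivity)]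
    have hsub2 : (1 - ε) • Ω ⊆ Ω := by
      intro y hy
      have := smul_subset_smul_of_le hΩv h0 (r := 1 - ε) (t := 1) (by rw [hε]; norm_num)
        (by rw [hε]; norm_num) hy
      simpa using this
    have h2 : volume (Ω \ ((1 - ε) • Ω)) = ENNReal.ofReal (A - (1 - ε) ^ 2 * A) := by
      rw [measure_sdiff hsub2 (hsmulm _).nullMeasurableSet
        (ne_top_of_le_ne_top hΩc.measure_lt_top.ne (measure_mono hsub2)), volume_smul_Y, hAe,
        ENNReal.ofReal_sub _ (by positivity), ENNReal.ofReal_mul (by positivity)]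
    have h3 : volume (Ω ∩ Metric.ball (0 : Y) p₀) ≤ ENNReal.ofReal (A / 32) := by
      have hc := copies hΩc hΩv hp₀ (ystar := x.1) ⟨x, hx, rfl⟩ hfar
      rw [hAe] at hc
      have hfin : volume (Ω ∩ Metric.ball (0 : Y) p₀) ≠ ⊤ :=
        ne_top_of_le_ne_top hΩc.measure_lt_top.ne (measure_mono inter_subset_left)
      have : (volume (Ω ∩ Metric.ball (0 : Y) p₀)) =
          ENNReal.ofReal (volume (Ω ∩ Metric.ball (0 : Y) p₀)).toReal :=
        (ENNReal.ofReal_toReal hfin).symm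
      rw [this] at hc ⊢
      rw [← ENNReal.ofReal_mul (by norm_num), ENNReal.ofReal_le_ofReal_iff hA0] at hc
      apply ENNReal.ofReal_le_ofReal
      linarith
    calc volume Bad ≤ volume (ε • Ω) + volume (Ω \ ((1 - ε) • Ω))
          + volume (Ω ∩ Metric.ball (0 : Y) p₀) :=
          (measure_union_le _ _).trans (add_le_add (measure_union_le _ _) le_rfl)
      _ ≤ ENNReal.ofReal (ε ^ 2 * A) + ENNReal.ofReal (A - (1 - ε) ^ 2 * A)
          + ENNReal.ofReal (A / 32) := by
          rw [h1, h2]; gcongr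
      _ = ENNReal.ofReal (5 / 128 * A) := by
          have e1 : 0 ≤ A - (1 - ε) ^ 2 * A := by
            have : (1 - ε) ^ 2 ≤ 1 := by rw [hε]; norm_num
            nlinarith
          rw [← ENNReal.ofReal_add (by positivity) e1,
            ← ENNReal.ofReal_add (add_nonneg (by positivity) e1) (by positivity)]
          congr 1
          rw [hε]
          ring
  have hcomb : ENNReal.ofReal (A / 3) ≤
      ENNReal.ofReal ((1 - ν) * Z + 4 * ν * (5 / 128 * A)) := by
    calc ENNReal.ofReal (A / 3) = ENNReal.ofReal (1 / 3) * volume Ω := by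
          rw [hAe, ← ENNReal.ofReal_mul (by norm_num)]; congr 1; ring
      _ = volume (tent Ω) := (volume_tent hΩc).symm
      _ ≤ volume (varSet K ν) + ENNReal.ofReal (4 * ν) * volume Bad := hmain
      _ ≤ ENNReal.ofReal ((1 - ν) * Z) + ENNReal.ofReal (4 * ν) * ENNReal.ofReal (5 / 128 * A) := by
          gcongr
      _ = _ := by
          rw [← ENNReal.ofReal_mul (by positivity), ← ENNReal.ofReal_add]
          · exact mul_nonneg (by linarith) hZ0
          · positivity
  rw [ENNReal.ofReal_le_ofReal_iff (add_nonneg (mul_nonneg (by linarith) hZ0) (by positivity))]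
    at hcomb
  have hν' : p₀ ^ 2 / 1024 = ν / 2 := by rw [hνdef]; ring
  rw [hν']
  by_contra hcon
  push Not at hcon
  have h1 : (1 - ν) * Z < (1 - ν) * ((1 + ν / 2) * (A / 3)) :=
    mul_lt_mul_of_pos_left hcon (by linarith)
  nlinarith [mul_nonneg hν0.le hA0, mul_nonneg (mul_nonneg hν0.le hν0.le) hA0]

end Vale.Agent.P243.Core
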