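import Vale.Agent.P243.Core2

/-!
Sections, slabs, the overlap integral and the Ruzsa type covering inequality.
-/

open MeasureTheory Set
open scoped ENNReal Pointwise

namespace Vale.Agent.P243.Core

/-- The horizontal section of `K` at height `z`. -/
def sec (K : Set W) (z : ℝ) : Set Y := (fun y : Y => ((y, z) : W)) ⁻¹' K

/-- The part of `K` with height in an interval. -/
def slab (K : Set W) (j l : ℝ) : Set W := K ∩ {x | x.2 ∈ Icc j l}

lemma isCompact_slab {K : Set W} (hK : IsCompact K) (j l : ℝ) : IsCompact (slab K j l) :=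
  hK.inter_right ((isClosed_Icc).preimage continuous_snd)

lemma isCompact_sec {K : Set W} (hK : IsCompact K) (z : ℝ) : IsCompact (sec K z) := by
  have h : sec K z = Prod.fst '' (K ∩ {x | x.2 = z}) := by
    ext y
    constructor
    · intro hy
      exact ⟨(y, z), ⟨hy, rfl⟩, rfl⟩
    · rintro ⟨⟨y', z'⟩, ⟨h1, h2⟩, rfl⟩
      have : z' = z := h2
      subst this
      exact h1
  rw [h]
  exact (hK.inter_right (isClosed_eq continuous_snd continuous_const)).image continuous_fst

lemma convex_sec {K : Set W} (hK : Convex ℝ K) (z : ℝ) : Convex ℝ (sec K z) := by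
  intro y hy y' hy' a b ha hb hab
  have := hK hy hy' ha hb hab
  have hz : a * z + b * z = z := by
    rw [← add_mul, hab, one_mul]
  simpa [sec, hz] using this

lemma volume_slab {K : Set W} (hK : MeasurableSet K) (j l : ℝ) :
    volume (slab K j l) = ∫⁻ z in Icc j l, volume (sec K z) := by
  have hS : MeasurableSet (slab K j l) :=
    hK.inter (measurableSet_Icc.preimage measurable_snd)
  rw [Measure.volume_eq_prod, Measure.prod_apply_symm hS, ← lintegral_indicator measurableSet_Icc]
  apply lintegral_congr
  intro z
  by_cases hz : z ∈ Icc j l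
  · rw [indicator_of_mem hz]
    congr 1
    ext y
    exact ⟨fun h => h.1, fun h => ⟨h, hz⟩⟩
  · rw [indicator_of_notMem hz]
    have : (fun x : Y => (x, z)) ⁻¹' slab K j l = ∅ := by
      ext y
      simp only [mem_preimage, mem_empty_iff_false, iff_false]
      exact fun h => hz h.2
    rw [this, measure_empty]

lemma slab_le {K : Set W} (hK : MeasurableSet K) {j l : ℝ} {c : ℝ≥0∞}
    (h : ∀ z ∈ Icc j l, volume (sec K z) ≤ c) :
    volume (slab K j l) ≤ c * ENNReal.ofReal (l - j) := by
  rw [volume_slab hK]
  calc _ ≤ ∫⁻ _ in Icc j l, c := setLIntegral_mono measurable_const h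
    _ = _ := by rw [setLIntegral_const, Real.volume_Icc]

lemma le_slab {K : Set W} (hK : MeasurableSet K) {j l : ℝ} {c : ℝ≥0∞}
    (h : ∀ z ∈ Icc j l, c ≤ volume (sec K z)) :
    c * ENNReal.ofReal (l - j) ≤ volume (slab K j l) := by
  rw [volume_slab hK]
  have hm : Measurable (fun z => volume (sec K z)) := measurable_measure_prodMk_right hK
  calc _ = ∫⁻ _ in Icc j l, c := by rw [setLIntegral_const, Real.volume_Icc]
    _ ≤ _ := setLIntegral_mono hm h

/-- The basic Tonelli identity for overlaps of a set with translates of another. -/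
lemma overlap_integral {P Q : Set Y} (hP : MeasurableSet P) (hQ : MeasurableSet Q) :
    ∫⁻ d, volume (P ∩ {x | x + d ∈ Q}) = volume P * volume Q := by
  let Γ : Set (Y × Y) := {p | p.1 ∈ P ∧ p.1 + p.2 ∈ Q}
  have hΓ : MeasurableSet Γ :=
    (hP.preimage measurable_fst).inter (hQ.preimage (measurable_fst.add measurable_snd))
  have h1 := Measure.prod_apply (μ := (volume : Measure Y)) (ν := (volume : Measure Y)) hΓ
  have h2 := Measure.prod_apply_symm (μ := (volume : Measure Y)) (ν := (volume : Measure Y)) hΓ
  have h3 : ∫⁻ x, volume (Prod.mk x ⁻¹' Γ) = volume P * volume Q := by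
    rw [mul_comm, ← lintegral_indicator_const hP]
    apply lintegral_congr
    intro x
    by_cases hx : x ∈ P
    · rw [indicator_of_mem hx]
      have : Prod.mk x ⁻¹' Γ = (fun d => x + d) ⁻¹' Q := by
        ext d
        exact ⟨fun h => h.2, fun h => ⟨hx, h⟩⟩
      rw [this, measure_preimage_add]
    · rw [indicator_of_notMem hx]
      have : Prod.mk x ⁻¹' Γ = ∅ := by
        ext d
        simp only [mem_preimage, mem_empty_iff_false, iff_false]
        exact fun h => hx h.1
      rw [this, measure_empty]
  rw [h1, h3] at h2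
  rw [h2]
  rfl

/-- The Ruzsa type covering inequality for compact sets. -/
lemma ruzsa {A' B' : Set Y} (hA : IsCompact A') (hB : IsCompact B') :
    volume (B' - A') * volume B' ≤ volume (A' + B') * volume (B' + B') := by
  have hP : MeasurableSet (A' + B') := (hA.add hB).isClosed.measurableSet
  have hQ : MeasurableSet (B' + B') := (hB.add hB).isClosed.measurableSet
  have hD : MeasurableSet (B' - A') := by
    rw [sub_eq_add_neg]
    exact (hB.add hA.neg).isClosed.measurableSet
  rw [← overlap_integral hP hQ, mul_comm, ← setLIntegral_const]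
  refine le_trans ?_ (setLIntegral_le_lintegral (B' - A') _)
  have hm : Measurable (fun d => volume ((A' + B') ∩ {x | x + d ∈ B' + B'})) := by
    let Γ : Set (Y × Y) := {p | p.1 ∈ A' + B' ∧ p.1 + p.2 ∈ B' + B'}
    have hΓ : MeasurableSet Γ :=
      (hP.preimage measurable_fst).inter (hQ.preimage (measurable_fst.add measurable_snd))
    exact measurable_measure_prodMk_right (μ := (volume : Measure Y)) hΓ
  apply setLIntegral_mono hm
  rintro d ⟨b, hb, a, ha, rfl⟩
  calc volume B' = volume ((fun w => a + w) '' B') := by
        rw [image_add_left, measure_preimage_add]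
    _ ≤ _ := by
        apply measure_mono
        rintro x ⟨b', hb', rfl⟩
        refine ⟨⟨a, ha, b', hb', rfl⟩, ?_⟩
        refine ⟨b, hb, b', hb', ?_⟩
        show b + b' = a + b' + (b - a)
        abel

/-- Existence of a translate with a large overlap. -/
lemma exists_overlap {A' B' D : Set Y} (hA : MeasurableSet A') (hB : MeasurableSet B')
    (hD : MeasurableSet D) (hsub : B' - A' ⊆ D) {c : ℝ≥0∞}
    (hc : c * volume D < volume A' * volume B') :
    ∃ t ∈ D, c ≤ volume (A' ∩ {x | x + t ∈ B'}) := by
  by_contra hcon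
  push Not at hcon
  apply lt_irrefl (c * volume D)
  calc c * volume D < volume A' * volume B' := hc
    _ = ∫⁻ d, volume (A' ∩ {x | x + d ∈ B'}) := (overlap_integral hA hB).symm
    _ ≤ ∫⁻ d, D.indicator (fun _ => c) d := by
        apply lintegral_mono
        intro d
        by_cases hd : d ∈ D
        · rw [indicator_of_mem hd]
          exact (hcon d hd).le
        · rw [indicator_of_notMem hd]
          have : A' ∩ {x | x + d ∈ B'} = ∅ := by
            ext x
            simp only [mem_inter_iff, mem_ofPred_eq, mem_empty_iff_false, iff_false, not_and]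
            intro hx hxd
            apply hd
            apply hsub
            exact ⟨x + d, hxd, x, hx, by simp⟩
          show volume (A' ∩ {x | x + d ∈ B'}) ≤ 0
          rw [this, measure_empty]
    _ = _ := by rw [lintegral_indicator_const hD]

/-- The shear sending `(y, z)` to the picture in which the segment with direction `(v, 1)` through
`(y₀, z₁)` becomes the vertical axis. -/
def shearPre (K : Set W) (v y₀ : Y) (z₁ : ℝ) : Set W :=
  (fun x : W => ((x.1 + x.2 • v + y₀, x.2 + z₁) : W)) ⁻¹' K

lemma isCompact_shearPre {K : Set W} (hK : IsCompact K) (v y₀ : Y) (z₁ : ℝ) :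
    IsCompact (shearPre K v y₀ z₁) := by
  have h : shearPre K v y₀ z₁ =
      (fun x : W => ((x.1 - (x.2 - z₁) • v - y₀, x.2 - z₁) : W)) '' K := by
    ext x
    constructor
    · intro hx
      refine ⟨_, hx, ?_⟩
      ext <;> simp <;> ring
    · rintro ⟨x', hx', rfl⟩
      have e : (fun x : W => ((x.1 + x.2 • v + y₀, x.2 + z₁) : W))
          ((fun x : W => ((x.1 - (x.2 - z₁) • v - y₀, x.2 - z₁) : W)) x') = x' := by
        ext <;> simp <;> ring
      show (fun x : W => ((x.1 + x.2 • v + y₀, x.2 + z₁) : W))
          ((fun x : W => ((x.1 - (x.2 - z₁) • v - y₀, x.2 - z₁) : W)) x') ∈ K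
      rw [e]
      exact hx'
  rw [h]
  exact hK.image (by fun_prop)

lemma convex_shearPre {K : Set W} (hK : Convex ℝ K) (v y₀ : Y) (z₁ : ℝ) :
    Convex ℝ (shearPre K v y₀ z₁) := by
  intro x hx x' hx' a b ha hb hab
  have := hK hx hx' ha hb hab
  show _ ∈ K
  convert this using 1
  have hb' : b = 1 - a := by linarith
  subst hb'
  ext <;> simp <;> ring

lemma sec_shearPre (K : Set W) (v y₀ : Y) (z₁ z : ℝ) :
    sec (shearPre K v y₀ z₁) z = (fun y => y + (z • v + y₀)) ⁻¹' sec K (z + z₁) := by
  ext y
  simp only [sec, shearPre, mem_preimage, add_assoc]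

lemma volume_shearPre {K : Set W} (hK : IsCompact K) (v y₀ : Y) (z₁ : ℝ) :
    volume (shearPre K v y₀ z₁) = volume K := by
  have h1 : MeasurableSet (shearPre K v y₀ z₁) :=
    (isCompact_shearPre hK v y₀ z₁).isClosed.measurableSet
  have h2 : MeasurableSet K := hK.isClosed.measurableSet
  rw [Measure.volume_eq_prod, Measure.prod_apply_symm h1, Measure.prod_apply_symm h2,
    ← lintegral_add_right_eq_self (fun z => volume ((fun x : Y => (x, z)) ⁻¹' K)) z₁]
  apply lintegral_congr
  intro z
  show volume (sec (shearPre K v y₀ z₁) z) = volume (sec K (z + z₁))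
  rw [sec_shearPre, measure_preimage_add_right]

lemma Om_shearPre (K : Set W) (v y₀ : Y) (z₁ : ℝ) :
    Om (shearPre K v y₀ z₁) =
      (fun w => (z₁ • v - y₀) + w) '' ((fun x : W => x.1 - x.2 • v) '' K) := by
  ext y
  constructor
  · rintro ⟨x, hx, rfl⟩
    refine ⟨_, ⟨_, hx, rfl⟩, ?_⟩
    ext <;> simp <;> ring
  · rintro ⟨_, ⟨x, hx, rfl⟩, rfl⟩
    refine ⟨((x.1 - (x.2 - z₁) • v - y₀, x.2 - z₁) : W), ?_, ?_⟩
    · have e : (fun x : W => ((x.1 + x.2 • v + y₀, x.2 + z₁) : W))
          ((x.1 - (x.2 - z₁) • v - y₀, x.2 - z₁) : W) = x := by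
        ext <;> simp <;> ring
      show (fun x : W => ((x.1 + x.2 • v + y₀, x.2 + z₁) : W))
          ((x.1 - (x.2 - z₁) • v - y₀, x.2 - z₁) : W) ∈ K
      rw [e]
      exact hx
    · ext <;> simp <;> ring

lemma volume_Om_shearPre (K : Set W) (v y₀ : Y) (z₁ : ℝ) :
    volume (Om (shearPre K v y₀ z₁)) = volume ((fun x : W => x.1 - x.2 • v) '' K) := by
  rw [Om_shearPre, image_add_left, measure_preimage_add]

/-- The prism gain: a base `E` at both ends of the axis forces extra volume over the tent. -/
theorem cone_gain {K : Set W} (hKc : IsCompact K) (hKv : Convex ℝ K) {L : ℝ} (hL : 0 ≤ L)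
    (hp : (((0 : Y), (0 : ℝ)) : W) ∈ K) (hq : (((0 : Y), L) : W) ∈ K)
    {E : Set Y} (hEm : MeasurableSet E) (hE : ∀ y ∈ E, ((y, (0 : ℝ)) : W) ∈ K ∧ ((y, L) : W) ∈ K)
    {σ : ℝ} (hσ : 0 ≤ σ) :
    ENNReal.ofReal L * (volume (tent (Om K)) + ENNReal.ofReal σ * volume (E \ σ • Om K))
      ≤ volume K := by
  have h0 : (0 : Y) ∈ Om K := zero_mem_Om hp
  have hΩv := convex_Om hKv
  have hΩc := isCompact_Om hKc
  have hTm : MeasurableSet (tent (Om K)) :=
    (isCompact_tent (isCompact_Om hKc)).isClosed.measurableSet
  have hKm : MeasurableSet K := hKc.isClosed.measurableSet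
  have hBad : MeasurableSet (E \ σ • Om K) :=
    hEm.diff (hΩc.smul σ).isClosed.measurableSet
  have hsec : ∀ y, ENNReal.ofReal L * (volume (Prod.mk y ⁻¹' tent (Om K)) +
      (E \ σ • Om K).indicator (fun _ => ENNReal.ofReal σ) y) ≤ volume (Prod.mk y ⁻¹' K) := by
    intro y
    by_cases hy : y ∈ Om K
    · obtain ⟨ζ, s, b, h, hbK, hζ, hs, hsum, hyb, hsub⟩ := tent_fiber hKc hy
      have hle : volume (Prod.mk y ⁻¹' tent (Om K)) ≤ ENNReal.ofReal ζ := by
        calc _ ≤ volume (Icc 0 ζ) := measure_mono hsub
          _ = _ := by simp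
      have hfib : ENNReal.ofReal (L * ζ) ≤ volume (Prod.mk y ⁻¹' K) := by
        have hsubK : Icc (s * h) (s * h + ζ * L) ⊆ Prod.mk y ⁻¹' K := by
          intro c hc
          rcases eq_or_lt_of_le (mul_nonneg hζ hL) with hz | hpos
          · have hc' : c = s * h := by
              have h1 := hc.1; have h2 := hc.2; linarith
            have := mix_mem hKv hp hq hbK hζ hs hsum (τ := 0) le_rfl zero_le_one
            rw [mem_preimage, hc', hyb]
            simpa using this
          · set τ := (c - s * h) / (ζ * L) with hτ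
            have hne : ζ * L ≠ 0 := hpos.ne'
            have hcτ : c = ζ * τ * L + s * h := by
              have h5 : (ζ * L) * τ = c - s * h := by
                rw [hτ, mul_comm, div_mul_cancel₀ _ hne]
              linarith
            have hτ0 : 0 ≤ τ := div_nonneg (by linarith [hc.1]) hpos.le
            have hτ1 : τ ≤ 1 := by
              rw [hτ, div_le_iff₀ hpos]; linarith [hc.2]
            rw [mem_preimage, hcτ, hyb]
            exact mix_mem hKv hp hq hbK hζ hs hsum hτ0 hτ1
        calc _ = volume (Icc (s * h) (s * h + ζ * L)) := by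
              rw [Real.volume_Icc]; congr 1; ring
          _ ≤ _ := measure_mono hsubK
      by_cases hyB : y ∈ E \ σ • Om K
      · rw [indicator_of_mem hyB]
        have hsσ : σ < s := by
          by_contra hcon
          push Not at hcon
          apply hyB.2
          apply smul_subset_smul_of_le hΩv h0 hs hcon
          rw [hyb]
          exact smul_mem_smul_set ⟨_, hbK, rfl⟩
        have hfull : ENNReal.ofReal L ≤ volume (Prod.mk y ⁻¹' K) := by
          obtain ⟨h1, h2⟩ := hE y hyB.1
          have hsubK : Icc 0 L ⊆ Prod.mk y ⁻¹' K := by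
            intro c hc
            rcases eq_or_lt_of_le hL with hL0 | hLpos
            · have : c = 0 := by
                have h3 := hc.1; have h4 := hc.2; linarith
              rw [this]
              exact h1
            · have h3 := hKv h1 h2 (a := 1 - c / L) (b := c / L)
                (by rw [sub_nonneg, div_le_one hLpos]; exact hc.2)
                (div_nonneg hc.1 hLpos.le) (by ring)
              have h4 : (1 - c / L) • ((y, (0 : ℝ)) : W) + (c / L) • ((y, L) : W) = (y, c) := by
                ext
                · simp; ring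
                · simp; ring
                · simp; field_simp
              rw [h4] at h3
              exact h3
          calc _ = volume (Icc 0 L) := by simp
            _ ≤ _ := measure_mono hsubK
        calc _ ≤ ENNReal.ofReal L * (ENNReal.ofReal ζ + ENNReal.ofReal σ) := by gcongr
          _ = ENNReal.ofReal L * ENNReal.ofReal (ζ + σ) := by
              rw [ENNReal.ofReal_add hζ hσ]
          _ ≤ ENNReal.ofReal L * ENNReal.ofReal 1 := by
              gcongr
              linarith
          _ = ENNReal.ofReal L := by simp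
          _ ≤ _ := hfull
      · rw [indicator_of_notMem hyB, add_zero]
        calc _ ≤ ENNReal.ofReal L * ENNReal.ofReal ζ := by gcongr
          _ = ENNReal.ofReal (L * ζ) := by rw [ENNReal.ofReal_mul hL]
          _ ≤ _ := hfib
    · have hE' : y ∉ E \ σ • Om K := by
        intro hyB
        exact hy ⟨_, (hE y hyB.1).1, rfl⟩
      rw [indicator_of_notMem hE', tent_fiber_outside hΩv h0 hy, measure_empty]
      simp
  calc _ = ∫⁻ y, ENNReal.ofReal L * (volume (Prod.mk y ⁻¹' tent (Om K)) +
        (E \ σ • Om K).indicator (fun _ => ENNReal.ofReal σ) y) := by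
        rw [lintegral_const_mul' _ _ ENNReal.ofReal_ne_top,
          lintegral_add_right _ (measurable_const.indicator hBad), lintegral_indicator_const hBad]
        congr 2
        exact Measure.prod_apply (μ := (volume : Measure Y)) (ν := (volume : Measure ℝ)) hTm
    _ ≤ ∫⁻ y, volume (Prod.mk y ⁻¹' K) := lintegral_mono hsec
    _ = _ := (Measure.prod_apply (μ := (volume : Measure Y)) (ν := (volume : Measure ℝ)) hKm).symm

end Vale.Agent.P243.Core
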