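import Vale.Agent.P243.Core3

/-!
The core inequality in coordinates.
-/

open MeasureTheory Set
open scoped ENNReal Pointwise

namespace Vale.Agent.P243.Core

lemma height_mem {K : Set W} (hp : (((0 : Y), (0 : ℝ)) : W) ∈ K)
    (hq : (((0 : Y), (1 : ℝ)) : W) ∈ K) (hd : ∀ x ∈ K, ∀ x' ∈ K, d2 x x' ≤ 1) {x : W} (hx : x ∈ K) :
    x.2 ∈ Icc (0 : ℝ) 1 := by
  have h1 := hd x hx _ hp
  have h2 := hd x hx _ hq
  simp only [d2] at h1 h2
  simp at h1 h2
  constructor <;> nlinarith [sq_nonneg x.1.1, sq_nonneg x.1.2]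

lemma d2_le_of_thin {ρ l : ℝ} {x x' : W} (hx : ‖x.1‖ < ρ) (hx' : ‖x'.1‖ < ρ)
    (hl : |x.2 - x'.2| ≤ l) : d2 x x' ≤ 8 * ρ ^ 2 + l ^ 2 := by
  have h1 : |x.1.1| < ρ := lt_of_le_of_lt (norm_fst_le x.1) hx
  have h2 : |x.1.2| < ρ := lt_of_le_of_lt (norm_snd_le x.1) hx
  have h3 : |x'.1.1| < ρ := lt_of_le_of_lt (norm_fst_le x'.1) hx'
  have h4 : |x'.1.2| < ρ := lt_of_le_of_lt (norm_snd_le x'.1) hx'
  have hρ : 0 < ρ := lt_of_le_of_lt (abs_nonneg _) h1
  rw [abs_lt] at h1 h2 h3 h4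
  have e1 : (x.1.1 - x'.1.1) ^ 2 ≤ 4 * ρ ^ 2 := by nlinarith
  have e2 : (x.1.2 - x'.1.2) ^ 2 ≤ 4 * ρ ^ 2 := by nlinarith
  have e3 : (x.2 - x'.2) ^ 2 ≤ l ^ 2 := by
    have hl0 : 0 ≤ l := (abs_nonneg _).trans hl
    rw [← sq_abs]
    gcongr
  unfold d2
  linarith

/-- Windows in height have volume close to their length times `V₀`. -/
lemma thin_windows {K : Set W} (hKc : IsCompact K)
    {Z : ℝ} (hZ : Tst K Z) {a η g V₀ : ℝ} (ha : a = 1 / 1024) (hη : η = 1 / 25600)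
    (hg : g = 1 / 102400) (hV₀pos : 0 < V₀) (hcase : Z < (1 + g) * V₀)
    {ρ : ℝ} (hρ : 8 * ρ ^ 2 ≤ a ^ 2 * η) (hthin : ∀ x ∈ K, ‖x.1‖ < ρ) :
    ∀ j l : ℝ, a ≤ l → volume (slab K j (j + l)) ≤ ENNReal.ofReal (l * (1 + η) * V₀) := by
  intro j l hl
  have hl0 : 0 < l := lt_of_lt_of_le (by rw [ha]; norm_num) hl
  have hX : 0 ≤ l * (1 + η / 2) := by rw [hη]; positivity
  refine (hZ _ (isCompact_slab hKc j (j + l)) inter_subset_left _ hX ?_).trans ?_
  · intro x hx x' hx'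
    have h1 := d2_le_of_thin (l := l) (hthin x hx.1) (hthin x' hx'.1) (by
      rw [abs_le]
      have a1 := hx.2.1; have a2 := hx.2.2; have a3 := hx'.2.1; have a4 := hx'.2.2
      constructor <;> linarith)
    refine h1.trans ?_
    have h2 : a ^ 2 ≤ l ^ 2 := by
      apply pow_le_pow_left₀ (by rw [ha]; norm_num) hl
    have hη0 : 0 < η := by rw [hη]; norm_num
    have h3 : (l * (1 + η / 2)) ^ 2 = l ^ 2 * (1 + η + η ^ 2 / 4) := by ring
    rw [h3]
    have h4 : a ^ 2 * η ≤ l ^ 2 * η := mul_le_mul_of_nonneg_right h2 hη0.le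
    nlinarith [sq_nonneg η, sq_nonneg l, mul_nonneg (sq_nonneg l) (sq_nonneg η)]
  · apply ENNReal.ofReal_le_ofReal
    have h1 : l * (1 + η / 2) * Z ≤ l * (1 + η / 2) * ((1 + g) * V₀) :=
      mul_le_mul_of_nonneg_left hcase.le hX
    have h2 : l * (1 + η / 2) * ((1 + g) * V₀) ≤ l * (1 + η) * V₀ := by
      have h3 : (1 + η / 2) * (1 + g) ≤ 1 + η := by rw [hη, hg]; norm_num
      have h4 : 0 ≤ l * V₀ := by positivity
      nlinarith
    linarith

/-- Sections of large area near the two ends. -/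
lemma thin_ends {K : Set W} (hKc : IsCompact K)
    (hp : (((0 : Y), (0 : ℝ)) : W) ∈ K) (hq : (((0 : Y), (1 : ℝ)) : W) ∈ K)
    (hd : ∀ x ∈ K, ∀ x' ∈ K, d2 x x' ≤ 1)
    {a η V₀ : ℝ} (ha : a = 1 / 1024) (hη : η = 1 / 25600) (hV₀pos : 0 < V₀)
    (hwin : ∀ j l : ℝ, a ≤ l → volume (slab K j (j + l)) ≤ ENNReal.ofReal (l * (1 + η) * V₀))
    (hVol : ENNReal.ofReal V₀ ≤ volume K) :
    ∃ z₁ ∈ Icc 0 a, ∃ z₂ ∈ Icc (1 - a) 1, ENNReal.ofReal (23 / 25 * V₀) ≤ volume (sec K z₁) ∧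
      ENNReal.ofReal (23 / 25 * V₀) ≤ volume (sec K z₂) := by
  have hKm : MeasurableSet K := hKc.isClosed.measurableSet
  have hK_slab : ∀ j : ℝ, K ⊆ slab K 0 j ∪ slab K j 1 := by
    intro j x hx
    have hh := height_mem hp hq hd hx
    by_cases hj : x.2 ≤ j
    · exact Or.inl ⟨hx, hh.1, hj⟩
    · exact Or.inr ⟨hx, (not_le.mp hj).le, hh.2⟩
  have hlarge : ∀ j l : ℝ, j ≤ l → l - j = a →
      ENNReal.ofReal ((a - η + a * η) * V₀) ≤ volume (slab K j l) →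
      ∃ z ∈ Icc j l, ENNReal.ofReal (23 / 25 * V₀) ≤ volume (sec K z) := by
    intro j l _ hjl hv
    by_contra hcon
    push Not at hcon
    have h1 := slab_le hKm (j := j) (l := l) (c := ENNReal.ofReal (23 / 25 * V₀))
      (fun z hz => (hcon z hz).le)
    rw [hjl, ← ENNReal.ofReal_mul (by positivity)] at h1
    have h2 := hv.trans h1
    have hpos : 0 < (a - η + a * η) * V₀ := by
      apply mul_pos _ hV₀pos
      rw [ha, hη]; norm_num
    rw [ENNReal.ofReal_le_ofReal_iff (by rw [ha]; positivity)] at h2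
    have h3 : 23 / 25 * a < a - η + a * η := by rw [ha, hη]; norm_num
    nlinarith
  have hend1 : ENNReal.ofReal ((a - η + a * η) * V₀) ≤ volume (slab K 0 a) := by
    have h1 := measure_mono (μ := volume) (hK_slab a)
    have h2 := (measure_union_le (μ := volume) (slab K 0 a) (slab K a 1))
    have h3 := hwin a (1 - a) (by rw [ha]; norm_num)
    rw [show a + (1 - a) = 1 by ring] at h3
    have h4 : ENNReal.ofReal V₀ ≤ volume (slab K 0 a) + ENNReal.ofReal ((1 - a) * (1 + η) * V₀) :=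
      hVol.trans (h1.trans (h2.trans (add_le_add le_rfl h3)))
    have hfin : volume (slab K 0 a) ≠ ⊤ := (isCompact_slab hKc _ _).measure_lt_top.ne
    rw [← ENNReal.ofReal_toReal hfin, ← ENNReal.ofReal_add ENNReal.toReal_nonneg
      (by rw [ha, hη]; positivity), ENNReal.ofReal_le_ofReal_iff
      (add_nonneg ENNReal.toReal_nonneg (by rw [ha, hη]; positivity))] at h4
    rw [← ENNReal.ofReal_toReal hfin]
    apply ENNReal.ofReal_le_ofReal
    nlinarith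
  have hend2 : ENNReal.ofReal ((a - η + a * η) * V₀) ≤ volume (slab K (1 - a) 1) := by
    have h1 := measure_mono (μ := volume) (hK_slab (1 - a))
    have h2 := (measure_union_le (μ := volume) (slab K 0 (1 - a)) (slab K (1 - a) 1))
    have h3 := hwin 0 (1 - a) (by rw [ha]; norm_num)
    rw [show 0 + (1 - a) = 1 - a by ring] at h3
    have h4 : ENNReal.ofReal V₀ ≤ ENNReal.ofReal ((1 - a) * (1 + η) * V₀) + volume (slab K (1 - a) 1) :=
      hVol.trans (h1.trans (h2.trans (add_le_add h3 le_rfl)))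
    have hfin : volume (slab K (1 - a) 1) ≠ ⊤ := (isCompact_slab hKc _ _).measure_lt_top.ne
    rw [← ENNReal.ofReal_toReal hfin, ← ENNReal.ofReal_add (by rw [ha, hη]; positivity)
      ENNReal.toReal_nonneg, ENNReal.ofReal_le_ofReal_iff
      (add_nonneg (by rw [ha, hη]; positivity) ENNReal.toReal_nonneg)] at h4
    rw [← ENNReal.ofReal_toReal hfin]
    apply ENNReal.ofReal_le_ofReal
    nlinarith
  obtain ⟨z₁, hz₁, hA'⟩ := hlarge 0 a (by rw [ha]; norm_num) (by ring) hend1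
  obtain ⟨z₂, hz₂, hB'⟩ := hlarge (1 - a) 1 (by rw [ha]; norm_num) (by ring) hend2
  exact ⟨z₁, hz₁, z₂, hz₂, hA', hB'⟩

/-- The section at the midpoint height is not much larger than `V₀`. -/
lemma thin_mid {K : Set W} (hKc : IsCompact K) (hKv : Convex ℝ K)
    (hq : (((0 : Y), (1 : ℝ)) : W) ∈ K)
    {a η V₀ : ℝ} (ha : a = 1 / 1024) (hη : η = 1 / 25600) (hV₀pos : 0 < V₀)
    (hwin : ∀ j l : ℝ, a ≤ l → volume (slab K j (j + l)) ≤ ENNReal.ofReal (l * (1 + η) * V₀))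
    {m : ℝ} (hm1 : (1 - a) / 2 ≤ m) (hm2 : m ≤ (1 + a) / 2) :
    volume (sec K m) ≤ ENNReal.ofReal (1005 / 1000 * V₀) := by
  have hKm : MeasurableSet K := hKc.isClosed.measurableSet
  have hCc : IsCompact (sec K m) := isCompact_sec hKc m
  have hCm : MeasurableSet (sec K m) := hCc.isClosed.measurableSet
  obtain ⟨vC, hvC⟩ : ∃ vC : ℝ, vC = (volume (sec K m)).toReal := ⟨_, rfl⟩
  have hvC0 : 0 ≤ vC := hvC ▸ ENNReal.toReal_nonneg
  have hCe : volume (sec K m) = ENNReal.ofReal vC := by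
    rw [hvC, ENNReal.ofReal_toReal hCc.measure_lt_top.ne]
  have hCbig : ∀ z ∈ Icc m (m + a), ENNReal.ofReal (996 / 1000 * vC) ≤ volume (sec K z) := by
    intro z hz
    obtain ⟨lam, hlam⟩ : ∃ lam : ℝ, lam = (1 - z) / (1 - m) := ⟨_, rfl⟩
    have h1m : 0 < 1 - m := by
      have : m ≤ (1 + a) / 2 := hm2
      rw [ha] at this
      linarith
    have hlam1 : lam ≤ 1 := by
      rw [hlam, div_le_one h1m]; linarith [hz.1]
    have hlam0 : 998 / 1000 ≤ lam := by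
      rw [hlam, le_div_iff₀ h1m]
      have h2 := hz.2
      rw [ha] at h2 hm2
      nlinarith
    have hlamz : lam * (1 - m) = 1 - z := by
      rw [hlam]; field_simp
    have hsub : lam • sec K m ⊆ sec K z := by
      rintro _ ⟨y, hy, rfl⟩
      have h1 := hKv hy hq (a := lam) (b := 1 - lam) (by linarith) (by linarith) (by ring)
      have e : lam • ((y, m) : W) + (1 - lam) • (((0 : Y), (1 : ℝ)) : W) = (lam • y, z) := by
        ext
        · simp
        · simp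
        · simp only [Prod.snd_add, Prod.smul_snd, smul_eq_mul]
          nlinarith
      rw [e] at h1
      exact h1
    calc ENNReal.ofReal (996 / 1000 * vC) ≤ ENNReal.ofReal (lam ^ 2 * vC) := by
          apply ENNReal.ofReal_le_ofReal
          apply mul_le_mul_of_nonneg_right _ hvC0
          nlinarith
      _ = volume (lam • sec K m) := by
          rw [volume_smul_Y, hCe, ENNReal.ofReal_mul (by positivity)]
      _ ≤ _ := measure_mono hsub
  have hCle : vC ≤ 1005 / 1000 * V₀ := by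
    have h1 := le_slab hKm hCbig
    have h2 := hwin m a le_rfl
    have h3 := h1.trans h2
    rw [show m + a - m = a by ring, ← ENNReal.ofReal_mul (by positivity),
      ENNReal.ofReal_le_ofReal_iff (by rw [ha, hη]; positivity)] at h3
    have haa : 0 < a := by rw [ha]; norm_num
    have h4 : 996 / 1000 * vC ≤ (1 + η) * V₀ := by
      have : a * (996 / 1000 * vC) ≤ a * ((1 + η) * V₀) := by nlinarith
      exact le_of_mul_le_mul_left this haa
    rw [hη] at h4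
    nlinarith
  rw [hCe]
  exact ENNReal.ofReal_le_ofReal hCle

/-- The doubling argument producing a translate with a large overlap. -/
lemma overlap_of_doubling {A' B' C : Set Y} (hA'c : IsCompact A') (hB'c : IsCompact B')
    (hCc : IsCompact C) (hB'v : Convex ℝ B') (hPsub : (1 / 2 : ℝ) • (A' + B') ⊆ C) {V₀ : ℝ}
    (hV₀pos : 0 < V₀) (hA' : ENNReal.ofReal (23 / 25 * V₀) ≤ volume A')
    (hB' : ENNReal.ofReal (23 / 25 * V₀) ≤ volume B')
    (hC : volume C ≤ ENNReal.ofReal (1005 / 1000 * V₀)) :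
    ∃ t : Y, ENNReal.ofReal (V₀ / 20) ≤ volume (A' ∩ {x | x + t ∈ B'}) := by
  have hPc : IsCompact (A' + B') := hA'c.add hB'c
  have hDc : IsCompact (B' - A') := by
    rw [sub_eq_add_neg]
    exact hB'c.add hA'c.neg
  have hQeq : B' + B' = (2 : ℝ) • B' := by
    have := hB'v.add_smul (p := (1 : ℝ)) (q := 1) zero_le_one zero_le_one
    rw [one_smul] at this
    rw [← this]
    norm_num
  obtain ⟨vA, hvA⟩ : ∃ vA : ℝ, vA = (volume A').toReal := ⟨_, rfl⟩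
  obtain ⟨vB, hvB⟩ : ∃ vB : ℝ, vB = (volume B').toReal := ⟨_, rfl⟩
  obtain ⟨vC, hvC⟩ : ∃ vC : ℝ, vC = (volume C).toReal := ⟨_, rfl⟩
  obtain ⟨vP, hvP⟩ : ∃ vP : ℝ, vP = (volume (A' + B')).toReal := ⟨_, rfl⟩
  obtain ⟨vD, hvD⟩ : ∃ vD : ℝ, vD = (volume (B' - A')).toReal := ⟨_, rfl⟩
  have hvA0 : 0 ≤ vA := hvA ▸ ENNReal.toReal_nonneg
  have hvB0 : 0 ≤ vB := hvB ▸ ENNReal.toReal_nonneg
  have hvC0 : 0 ≤ vC := hvC ▸ ENNReal.toReal_nonneg
  have hvP0 : 0 ≤ vP := hvP ▸ ENNReal.toReal_nonneg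
  have hvD0 : 0 ≤ vD := hvD ▸ ENNReal.toReal_nonneg
  have hAe' : volume A' = ENNReal.ofReal vA := by
    rw [hvA, ENNReal.ofReal_toReal hA'c.measure_lt_top.ne]
  have hBe' : volume B' = ENNReal.ofReal vB := by
    rw [hvB, ENNReal.ofReal_toReal hB'c.measure_lt_top.ne]
  have hCe : volume C = ENNReal.ofReal vC := by
    rw [hvC, ENNReal.ofReal_toReal hCc.measure_lt_top.ne]
  have hPe : volume (A' + B') = ENNReal.ofReal vP := by
    rw [hvP, ENNReal.ofReal_toReal hPc.measure_lt_top.ne]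
  have hDe : volume (B' - A') = ENNReal.ofReal vD := by
    rw [hvD, ENNReal.ofReal_toReal hDc.measure_lt_top.ne]
  have hvA1 : 23 / 25 * V₀ ≤ vA := by
    rw [hAe', ENNReal.ofReal_le_ofReal_iff hvA0] at hA'
    exact hA'
  have hvB1 : 23 / 25 * V₀ ≤ vB := by
    rw [hBe', ENNReal.ofReal_le_ofReal_iff hvB0] at hB'
    exact hB'
  have hCle : vC ≤ 1005 / 1000 * V₀ := by
    rw [hCe, ENNReal.ofReal_le_ofReal_iff (by positivity)] at hC
    exact hC
  have hvB2 : 0 < vB := by nlinarith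
  have hvP1 : vP ≤ 4 * vC := by
    have h1 := measure_mono (μ := volume) hPsub
    rw [volume_smul_Y, hPe, hCe, ← ENNReal.ofReal_mul (by positivity),
      ENNReal.ofReal_le_ofReal_iff hvC0] at h1
    norm_num at h1
    linarith
  have hvD1 : vD ≤ 16 * vC := by
    have h1 := ruzsa hA'c hB'c
    rw [hQeq, volume_smul_Y, hDe, hBe', hPe, ← ENNReal.ofReal_mul hvD0,
      ← ENNReal.ofReal_mul (by positivity), ← ENNReal.ofReal_mul (by positivity),
      ENNReal.ofReal_le_ofReal_iff (by positivity)] at h1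
    norm_num at h1
    have h2 : vD * vB ≤ (16 * vC) * vB := by nlinarith
    exact le_of_mul_le_mul_right h2 hvB2
  have hover : ENNReal.ofReal (V₀ / 20) * volume (B' - A') < volume A' * volume B' := by
    have h2 : (23 / 25 * V₀) * (23 / 25 * V₀) ≤ vA * vB :=
      mul_le_mul hvA1 hvB1 (by positivity) hvA0
    have h3 : 0 < vA * vB := by nlinarith
    rw [hDe, hAe', hBe', ← ENNReal.ofReal_mul (by positivity), ← ENNReal.ofReal_mul hvA0,
      ENNReal.ofReal_lt_ofReal_iff h3]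
    have h1 : V₀ / 20 * vD ≤ V₀ / 20 * (16 * (1005 / 1000 * V₀)) := by
      apply mul_le_mul_of_nonneg_left _ (by positivity)
      linarith
    nlinarith
  obtain ⟨t, -, hEt⟩ := exists_overlap hA'c.isClosed.measurableSet hB'c.isClosed.measurableSet
    hDc.isClosed.measurableSet subset_rfl hover
  exact ⟨t, hEt⟩

/-- The shear step: an overlap of two far apart sections forces more volume than the tent. -/
lemma shear_gain {K : Set W} (hKc : IsCompact K) (hKv : Convex ℝ K) {𝔸 V₀ : ℝ}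
    (h𝔸0 : 0 ≤ 𝔸) (h𝔸V : 𝔸 ≤ 3 * V₀) (hV₀pos : 0 < V₀)
    (hSh : ∀ v : Y, ENNReal.ofReal 𝔸 ≤ volume ((fun x : W => x.1 - x.2 • v) '' K))
    {z₁ z₂ L : ℝ} (hL : L = z₂ - z₁) (hLpos : 0 < L) {t : Y}
    (hE : ENNReal.ofReal (V₀ / 20) ≤ volume (sec K z₁ ∩ {x | x + t ∈ sec K z₂})) :
    L * ((1 / 3 + 1 / 1000 * 3 / 4) * 𝔸) ≤ (volume K).toReal := by
  obtain ⟨E₀, hE₀⟩ : ∃ E₀, E₀ = sec K z₁ ∩ {x | x + t ∈ sec K z₂} := ⟨_, rfl⟩
  rw [← hE₀] at hE
  have hEc : IsCompact E₀ := by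
    rw [hE₀]
    exact (isCompact_sec hKc z₁).inter_right
      ((isCompact_sec hKc z₂).isClosed.preimage (by fun_prop))
  have hEm : MeasurableSet E₀ := hEc.isClosed.measurableSet
  have hEne : E₀.Nonempty := by
    rw [nonempty_iff_ne_empty]
    rintro rfl
    rw [measure_empty, nonpos_iff_eq_zero, ENNReal.ofReal_eq_zero] at hE
    linarith
  obtain ⟨y₀, hy₀⟩ := hEne
  have hy₀' : y₀ ∈ sec K z₁ ∩ {x | x + t ∈ sec K z₂} := hE₀ ▸ hy₀
  obtain ⟨v, hv⟩ : ∃ v : Y, v = (1 / L) • t := ⟨_, rfl⟩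
  have hLv : L • v = t := by
    rw [hv, smul_smul, mul_one_div_cancel hLpos.ne', one_smul]
  have hz₂ : L + z₁ = z₂ := by rw [hL]; ring
  obtain ⟨K'', hK''⟩ : ∃ K'', K'' = shearPre K v y₀ z₁ := ⟨_, rfl⟩
  have hK''c : IsCompact K'' := hK'' ▸ isCompact_shearPre hKc v y₀ z₁
  have hK''v : Convex ℝ K'' := hK'' ▸ convex_shearPre hKv v y₀ z₁
  have hmem : ∀ (y : Y) (z : ℝ), ((y, z) : W) ∈ K'' ↔ ((y + z • v + y₀, z + z₁) : W) ∈ K := by
    intro y z
    rw [hK'']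
    rfl
  have hp'' : (((0 : Y), (0 : ℝ)) : W) ∈ K'' := by
    rw [hmem]
    have h1 : ((y₀, z₁) : W) ∈ K := hy₀'.1
    simpa using h1
  have hq'' : (((0 : Y), L) : W) ∈ K'' := by
    rw [hmem, hLv, hz₂, zero_add, add_comm t]
    exact hy₀'.2
  obtain ⟨E, hEdef⟩ : ∃ E : Set Y, E = (fun y => y + y₀) ⁻¹' E₀ := ⟨_, rfl⟩
  have hEm' : MeasurableSet E := by
    rw [hEdef]
    exact hEm.preimage (by fun_prop)
  have hEvol : volume E = volume E₀ := by
    rw [hEdef, measure_preimage_add_right]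
  have hEK : ∀ y ∈ E, ((y, (0 : ℝ)) : W) ∈ K'' ∧ ((y, L) : W) ∈ K'' := by
    intro y hy
    have hy' : y + y₀ ∈ sec K z₁ ∩ {x | x + t ∈ sec K z₂} := by
      rw [← hE₀]
      rw [hEdef] at hy
      exact hy
    constructor
    · rw [hmem]
      have h1 : ((y + y₀, z₁) : W) ∈ K := hy'.1
      simpa using h1
    · rw [hmem, hLv, hz₂]
      have h2 : y + y₀ + t ∈ sec K z₂ := hy'.2
      have e : y + t + y₀ = y + y₀ + t := by abel
      rw [e]
      exact h2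
  obtain ⟨σ, hσ⟩ : ∃ σ : ℝ, σ = 1 / 16 := ⟨_, rfl⟩
  have hσ0 : 0 ≤ σ := by rw [hσ]; norm_num
  have hcone := cone_gain hK''c hK''v hLpos.le hp'' hq'' hEm' hEK hσ0
  have hΩc : IsCompact (Om K'') := isCompact_Om hK''c
  obtain ⟨A'', hA''⟩ : ∃ A'' : ℝ, A'' = (volume (Om K'')).toReal := ⟨_, rfl⟩
  have hA''0 : 0 ≤ A'' := hA'' ▸ ENNReal.toReal_nonneg
  have hA''e : volume (Om K'') = ENNReal.ofReal A'' := by
    rw [hA'', ENNReal.ofReal_toReal hΩc.measure_lt_top.ne]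
  have h𝔸A'' : 𝔸 ≤ A'' := by
    have h := hSh v
    rw [← volume_Om_shearPre K v y₀ z₁, ← hK'', hA''e, ENNReal.ofReal_le_ofReal_iff hA''0] at h
    exact h
  obtain ⟨w, hw⟩ : ∃ w : ℝ, w = (volume (E \ σ • Om K'')).toReal := ⟨_, rfl⟩
  have hEfin : volume E ≠ ⊤ := by
    rw [hEvol]
    exact hEc.measure_lt_top.ne
  have hwfin : volume (E \ σ • Om K'') ≠ ⊤ :=
    ne_top_of_le_ne_top hEfin (measure_mono sdiff_subset)
  have hw0 : 0 ≤ w := hw ▸ ENNReal.toReal_nonneg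
  have hwe : volume (E \ σ • Om K'') = ENNReal.ofReal w := by
    rw [hw, ENNReal.ofReal_toReal hwfin]
  have hwlow : V₀ / 20 - σ ^ 2 * A'' ≤ w := by
    have h1 : volume E - volume (σ • Om K'') ≤ volume (E \ σ • Om K'') := le_measure_sdiff
    rw [volume_smul_Y, hA''e, hwe, ← ENNReal.ofReal_mul (by positivity)] at h1
    have h2 : ENNReal.ofReal (V₀ / 20) - ENNReal.ofReal (σ ^ 2 * A'') ≤ ENNReal.ofReal w := by
      refine le_trans ?_ h1
      apply tsub_le_tsub_right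
      rw [hEvol]
      exact hE
    rw [← ENNReal.ofReal_sub _ (by positivity), ENNReal.ofReal_le_ofReal_iff hw0] at h2
    exact h2
  have hKfin : volume K ≠ ⊤ := hKc.measure_lt_top.ne
  have hfinal : L * (A'' / 3 + σ * w) ≤ (volume K).toReal := by
    rw [hK'', volume_shearPre hKc, ← hK'', volume_tent hΩc, hA''e, hwe,
      ← ENNReal.ofReal_mul (by norm_num), ← ENNReal.ofReal_mul hσ0,
      ← ENNReal.ofReal_add (by positivity) (by positivity),
      ← ENNReal.ofReal_mul hLpos.le, ENNReal.ofReal_le_iff_le_toReal hKfin] at hcone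
    refine le_trans (le_of_eq ?_) hcone
    ring
  refine le_trans ?_ hfinal
  apply mul_le_mul_of_nonneg_left _ hLpos.le
  rw [hσ] at hwlow ⊢
  nlinarith

/-- The thin case: all of `K` is close to the axis. -/
theorem thin_bound {K : Set W} (hKc : IsCompact K) (hKv : Convex ℝ K)
    (hp : (((0 : Y), (0 : ℝ)) : W) ∈ K) (hq : (((0 : Y), (1 : ℝ)) : W) ∈ K)
    (hd : ∀ x ∈ K, ∀ x' ∈ K, d2 x x' ≤ 1) {Z 𝔸 : ℝ} (hZ0 : 0 ≤ Z) (hZ : Tst K Z)
    (h𝔸0 : 0 ≤ 𝔸)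
    (hSh : ∀ v : Y, ENNReal.ofReal 𝔸 ≤ volume ((fun x : W => x.1 - x.2 • v) '' K))
    {ρ : ℝ} (hρ : 8 * ρ ^ 2 ≤ (1 / 1024) ^ 2 * (1 / 25600)) (hthin : ∀ x ∈ K, ‖x.1‖ < ρ) :
    (1 + 1 / 102400) * (𝔸 / 3) ≤ Z := by
  obtain ⟨a, ha⟩ : ∃ a : ℝ, a = 1 / 1024 := ⟨_, rfl⟩
  obtain ⟨η, hη⟩ : ∃ η : ℝ, η = 1 / 25600 := ⟨_, rfl⟩
  obtain ⟨g, hg⟩ : ∃ g : ℝ, g = 1 / 102400 := ⟨_, rfl⟩
  rw [← ha, ← hη] at hρ
  rw [← hg]
  obtain ⟨Ω, hΩ⟩ : ∃ Ω, Ω = Om K := ⟨_, rfl⟩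
  have hΩc : IsCompact Ω := hΩ ▸ isCompact_Om hKc
  obtain ⟨A, hA⟩ : ∃ A : ℝ, A = (volume Ω).toReal := ⟨_, rfl⟩
  have hA0 : 0 ≤ A := hA ▸ ENNReal.toReal_nonneg
  have hAe : volume Ω = ENNReal.ofReal A := by
    rw [hA, ENNReal.ofReal_toReal hΩc.measure_lt_top.ne]
  -- the shadow dominates the least shear shadow
  have h𝔸A : 𝔸 ≤ A := by
    have h := hSh 0
    have e : (fun x : W => x.1 - x.2 • (0 : Y)) '' K = Ω := by
      simp [hΩ, Om]
    rw [e, hAe, ENNReal.ofReal_le_ofReal_iff hA0] at h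
    exact h
  obtain ⟨V₀, hV₀⟩ : ∃ V₀ : ℝ, V₀ = A / 3 := ⟨_, rfl⟩
  by_cases hcase : (1 + g) * V₀ ≤ Z
  · have : (1 + g) * (𝔸 / 3) ≤ (1 + g) * V₀ := by
      apply mul_le_mul_of_nonneg_left _ (by rw [hg]; norm_num)
      rw [hV₀]; linarith
    exact this.trans hcase
  push Not at hcase
  have hV₀pos : 0 < V₀ := by
    by_contra hcon
    push Not at hcon
    have hV₀0 : V₀ = 0 := le_antisymm hcon (by rw [hV₀]; positivity)
    rw [hV₀0] at hcase
    linarith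
  have hwin := thin_windows hKc hZ ha hη hg hV₀pos hcase hρ hthin
  -- the volume is at least the tent
  have hVol : ENNReal.ofReal V₀ ≤ volume K := by
    have h1 := tent_le_varSet hKc hKv hp hq (ν := 0) le_rfl MeasurableSet.empty (by
      intro y _ hyB ζ s b _ hζ hs _ _ _
      exact mul_nonneg (mul_nonneg hζ hs) (N2_nonneg b))
    rw [measure_empty, mul_zero, add_zero, volume_tent (hΩ ▸ hΩc), ← hΩ, hAe,
      ← ENNReal.ofReal_mul (by norm_num)] at h1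
    calc ENNReal.ofReal V₀ = ENNReal.ofReal (1 / 3 * A) := by rw [hV₀]; congr 1; ring
      _ ≤ _ := h1
      _ ≤ _ := measure_mono (varSet_subset hKv 0)
  obtain ⟨z₁, hz₁, z₂, hz₂, hA', hB'⟩ := thin_ends hKc hp hq hd ha hη hV₀pos hwin hVol
  obtain ⟨m, hm⟩ : ∃ m : ℝ, m = (z₁ + z₂) / 2 := ⟨_, rfl⟩
  have hz₁' := hz₁.1; have hz₁'' := hz₁.2; have hz₂' := hz₂.1; have hz₂'' := hz₂.2
  have hm1 : (1 - a) / 2 ≤ m := by rw [hm]; linarith
  have hm2 : m ≤ (1 + a) / 2 := by rw [hm]; linarith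
  have hC := thin_mid hKc hKv hq ha hη hV₀pos hwin hm1 hm2
  have hPsub : (1 / 2 : ℝ) • (sec K z₁ + sec K z₂) ⊆ sec K m := by
    rintro _ ⟨_, ⟨a', ha', b', hb', rfl⟩, rfl⟩
    have h1 := hKv ha' hb' (a := 1 / 2) (b := 1 / 2) (by norm_num) (by norm_num) (by norm_num)
    have e : (1 / 2 : ℝ) • ((a', z₁) : W) + (1 / 2 : ℝ) • ((b', z₂) : W) =
        ((1 / 2 : ℝ) • (a' + b'), m) := by
      ext
      · simp
      · simp
      · simp [hm]; ring
    rw [e] at h1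
    exact h1
  obtain ⟨t, hEt⟩ := overlap_of_doubling (isCompact_sec hKc z₁) (isCompact_sec hKc z₂)
    (isCompact_sec hKc m) (convex_sec hKv z₂) hPsub hV₀pos hA' hB' hC
  have hLlow : 1 - 2 * a ≤ z₂ - z₁ := by linarith
  have hLpos : 0 < z₂ - z₁ := by rw [ha] at hLlow; linarith
  have hgain := shear_gain hKc hKv h𝔸0 (by rw [hV₀]; linarith) hV₀pos hSh rfl hLpos hEt
  -- test with the whole body
  have hZK : (volume K).toReal ≤ Z := by
    have h1 := hZ K hKc subset_rfl 1 zero_le_one (by simpa using hd)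
    rw [one_mul] at h1
    exact ENNReal.toReal_le_of_le_ofReal hZ0 h1
  refine le_trans ?_ (hgain.trans hZK)
  rw [hg]
  have : (1 - 2 * a) * ((1 / 3 + 1 / 1000 * 3 / 4) * 𝔸) ≤ (z₂ - z₁) * ((1 / 3 + 1 / 1000 * 3 / 4) * 𝔸) :=
    mul_le_mul_of_nonneg_right hLlow (by positivity)
  refine le_trans ?_ this
  rw [ha]
  nlinarith

/-- The core inequality in coordinates. -/
theorem core_bound {K : Set W} (hKc : IsCompact K) (hKv : Convex ℝ K)
    (hp : (((0 : Y), (0 : ℝ)) : W) ∈ K) (hq : (((0 : Y), (1 : ℝ)) : W) ∈ K)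
    (hd : ∀ x ∈ K, ∀ x' ∈ K, d2 x x' ≤ 1) {Z 𝔸 : ℝ} (hZ0 : 0 ≤ Z) (hZ : Tst K Z)
    (h𝔸0 : 0 ≤ 𝔸)
    (hSh : ∀ v : Y, ENNReal.ofReal 𝔸 ≤ volume ((fun x : W => x.1 - x.2 • v) '' K)) :
    (1 + 1 / 2 ^ 66) * (𝔸 / 3) ≤ Z := by
  by_cases hfar : ∃ x ∈ K, (1 / 2 ^ 19 : ℝ) ≤ ‖x.1‖
  · obtain ⟨x, hx, hxfar⟩ := hfar
    have h1 := nonthin_bound hKc hKv hp hq hd hZ0 hZ (p₀ := 1 / 2 ^ 28) (by positivity)
      (by norm_num) hx (by norm_num at hxfar ⊢; linarith)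
    have hA : 𝔸 ≤ (volume (Om K)).toReal := by
      have h := hSh 0
      have e : (fun x : W => x.1 - x.2 • (0 : Y)) '' K = Om K := by
        simp [Om]
      rw [e] at h
      exact (ENNReal.ofReal_le_iff_le_toReal (isCompact_Om hKc).measure_lt_top.ne).mp h
    refine le_trans ?_ h1
    have e : ((1 : ℝ) / 2 ^ 28) ^ 2 / 1024 = 1 / 2 ^ 66 := by norm_num
    rw [e]
    apply mul_le_mul_of_nonneg_left _ (by positivity)
    linarith
  · push Not at hfar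
    have h1 := thin_bound hKc hKv hp hq hd hZ0 hZ h𝔸0 hSh (ρ := 1 / 2 ^ 19) (by norm_num) hfar
    refine le_trans ?_ h1
    apply mul_le_mul_of_nonneg_right _ (by positivity)
    norm_num

end Vale.Agent.P243.Core
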