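import Mathlib

/-!
Statement level definitions: Euclidean three space, orthonormal coordinates on a plane,
and the smallest projection area of a set.
-/

open MeasureTheory Set

namespace Vale.Agent.P243

/-- Euclidean three space. -/
abbrev E3 := EuclideanSpace ℝ (Fin 3)

/-- `a` and `b` are orthonormal, so they are an orthonormal frame of a plane through the origin. -/
def IsOrthoPair (a b : E3) : Prop := ‖a‖ = 1 ∧ ‖b‖ = 1 ∧ inner ℝ a b = 0

/-- The coordinates in the frame `(a, b)` of the orthogonal projection of `x` onto the plane
spanned by `a` and `b`. -/
noncomputable def planeCoords (a b x : E3) : ℝ × ℝ := (inner ℝ x a, inner ℝ x b)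

/-- The infimum, over all planes through the origin (given by orthonormal frames `(a, b)`),
of the area of the orthogonal projection of `K` onto the plane, computed in the frame
coordinates. -/
noncomputable def minProjArea (K : Set E3) : ENNReal :=
  ⨅ p : {p : E3 × E3 // IsOrthoPair p.1 p.2}, volume (planeCoords p.1.1 p.1.2 '' K)

end Vale.Agent.P243
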