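import Vale.Agent.P243.Defs

/-!
Orthonormal frames in Euclidean three space and the charts they give on the plane
perpendicular to a unit vector.
-/

open MeasureTheory Set

namespace Vale.Agent.P243

/-- The plane perpendicular to `u`, as a subspace with its own Lebesgue measure. -/
noncomputable abbrev perpPlane (u : E3) : Submodule ℝ E3 := (ℝ ∙ u)ᗮ

/-- The orthogonal projection of `K` onto the plane perpendicular to `u`. -/
noncomputable def shadow (K : Set E3) (u : E3) : Set (perpPlane u) :=
  (fun x => (perpPlane u).orthogonalProjectionOnto x) '' K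

/-- The cylinder with base `B`, a subset of the plane perpendicular to `u`, and axis direction `u`. -/
def cylinder (u : E3) (B : Set (perpPlane u)) : Set E3 :=
  {x | ∃ b ∈ B, ∃ s : ℝ, x = (b : E3) + s • u}

lemma finrank_E3 : Module.finrank ℝ E3 = 3 := by simp

/-- Two orthonormal vectors of three space extend to an orthonormal triple. -/
lemma exists_third (a v : E3) (ha : ‖a‖ = 1) (hv : ‖v‖ = 1) (hav : inner ℝ a v = 0) :
    ∃ c : E3, ‖c‖ = 1 ∧ inner ℝ c a = 0 ∧ inner ℝ c v = 0 := by
  classical
  let f : Fin 3 → E3 := ![a, v, 0]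
  let s : Set (Fin 3) := {0, 1}
  have hf : Orthonormal ℝ (s.domRestrict f) := by
    rw [orthonormal_iff_ite]
    rintro ⟨i, hi⟩ ⟨j, hj⟩
    simp only [s, Set.mem_insert_iff, Set.mem_singleton_iff] at hi hj
    rcases hi with rfl | rfl <;> rcases hj with rfl | rfl <;>
      simp [Set.domRestrict, f, ha, hv, hav, real_inner_comm]
  obtain ⟨b, hb⟩ := hf.exists_orthonormalBasis_extension_of_card_eq (by simp)
  refine ⟨b 2, b.orthonormal.1 2, ?_, ?_⟩
  · have h0 : b 0 = a := by simpa [f, s] using hb 0 (by simp [s])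
    rw [← h0]
    exact b.orthonormal.2 (by decide)
  · have h1 : b 1 = v := by simpa [f, s] using hb 1 (by simp [s])
    rw [← h1]
    exact b.orthonormal.2 (by decide)

/-- The chart of the plane perpendicular to `u` given by an orthonormal pair in it. -/
lemma exists_chart (u v a : E3) (hu : ‖u‖ = 1) (hv : ‖v‖ = 1) (ha : ‖a‖ = 1)
    (huv : inner ℝ u v = 0) (hua : inner ℝ u a = 0) (hva : inner ℝ v a = 0) :
    ∃ e : perpPlane u ≃ᵐ ℝ × ℝ, MeasurePreserving e volume volume ∧
      ∀ b : perpPlane u, e b = (inner ℝ (b : E3) v, inner ℝ (b : E3) a) := by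
  classical
  have : Fact (Module.finrank ℝ E3 = 2 + 1) := ⟨finrank_E3⟩
  have hu0 : u ≠ 0 := by
    intro h; simp [h] at hu
  have hfr : Module.finrank ℝ (perpPlane u) = 2 :=
    Submodule.finrank_orthogonal_span_singleton hu0
  have hvm : v ∈ perpPlane u := Submodule.mem_orthogonal_singleton_iff_inner_right.mpr huv
  have ham : a ∈ perpPlane u := Submodule.mem_orthogonal_singleton_iff_inner_right.mpr hua
  let f : Fin 2 → perpPlane u := ![⟨v, hvm⟩, ⟨a, ham⟩]
  have hf : Orthonormal ℝ ((Set.univ : Set (Fin 2)).domRestrict f) := by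
    rw [orthonormal_iff_ite]
    rintro ⟨i, _⟩ ⟨j, _⟩
    fin_cases i <;> fin_cases j <;>
      simp [Set.domRestrict, f, hv, ha, hva, Submodule.coe_inner, real_inner_comm]
  obtain ⟨b, hb⟩ := hf.exists_orthonormalBasis_extension_of_card_eq (by simpa using hfr)
  have hb0 : b 0 = ⟨v, hvm⟩ := by simpa [f] using hb 0 (by simp)
  have hb1 : b 1 = ⟨a, ham⟩ := by simpa [f] using hb 1 (by simp)
  let e : perpPlane u ≃ᵐ ℝ × ℝ :=
    (b.repr.toHomeomorph.toMeasurableEquiv).trans
      (((MeasurableEquiv.toLp 2 (Fin 2 → ℝ)).symm).trans MeasurableEquiv.finTwoArrow)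
  refine ⟨e, ?_, ?_⟩
  · have h1 := b.measurePreserving_repr
    have h2 := EuclideanSpace.volume_preserving_symm_measurableEquiv_toLp (Fin 2)
    have h3 := volume_preserving_finTwoArrow ℝ
    exact h3.comp (h2.comp h1)
  · intro x
    have h0 : (b.repr x) 0 = inner ℝ (x : E3) v := by
      rw [OrthonormalBasis.repr_apply_apply, hb0, Submodule.coe_inner, real_inner_comm]
    have h1 : (b.repr x) 1 = inner ℝ (x : E3) a := by
      rw [OrthonormalBasis.repr_apply_apply, hb1, Submodule.coe_inner, real_inner_comm]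
    ext
    · simpa [e] using h0
    · simpa [e] using h1

end Vale.Agent.P243
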