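import Vale.Agent.P243.Bang
import Vale.Agent.P243.Frames

/-!
Slicing lemmas for cylinders whose axes are parallel to a common plane.
-/

open MeasureTheory Set

namespace Vale.Agent.P243

/-- The coordinate of the projection of a point against a vector of the plane. -/
lemma inner_proj (u w x : E3) (hw : w ∈ perpPlane u) :
    inner ℝ (((perpPlane u).orthogonalProjectionOnto x : perpPlane u) : E3) w = inner ℝ x w := by
  have h := Submodule.inner_orthogonalProjectionOnto_eq_of_mem_right (K := perpPlane u)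
    (⟨w, hw⟩ : perpPlane u) x
  rw [Submodule.coe_inner] at h
  exact h

/-- Midpoint bound: the area of a shadow is at most the height times the length
of the projected middle section. -/
theorem shadow_volume_le (K : Set E3) (hKc : IsCompact K) (hKv : Convex ℝ K)
    (u v a : E3) (hu : ‖u‖ = 1) (hv : ‖v‖ = 1) (ha : ‖a‖ = 1)
    (huv : inner ℝ u v = 0) (hua : inner ℝ u a = 0) (hva : inner ℝ v a = 0)
    (t₀ T : ℝ) (hT : 0 < T) (xb xt : E3) (hxb : xb ∈ K) (hxt : xt ∈ K)
    (hb : inner ℝ xb v = t₀ - T / 2) (ht : inner ℝ xt v = t₀ + T / 2)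
    (hrange : ∀ x ∈ K, t₀ - T / 2 ≤ inner ℝ x v ∧ inner ℝ x v ≤ t₀ + T / 2)
    (ω : ℝ) (hω : ∀ x ∈ K, ∀ y ∈ K, inner ℝ x v = t₀ → inner ℝ y v = t₀ → inner ℝ (x - y) a ≤ ω) :
    volume (shadow K u) ≤ ENNReal.ofReal (T * ω) := by
  classical
  obtain ⟨e, he, hee⟩ := exists_chart u v a hu hv ha huv hua hva
  have hvm : v ∈ perpPlane u := Submodule.mem_orthogonal_singleton_iff_inner_right.mpr huv
  have ham : a ∈ perpPlane u := Submodule.mem_orthogonal_singleton_iff_inner_right.mpr hua
  let φ : E3 → ℝ × ℝ := fun x => (inner ℝ x v, inner ℝ x a)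
  have hφc : Continuous φ := by fun_prop
  let Q : Set (ℝ × ℝ) := φ '' K
  have hQc : IsCompact Q := hKc.image hφc
  have hQm : MeasurableSet Q := hQc.measurableSet
  have hshadow : shadow K u = e ⁻¹' Q := by
    ext b
    constructor
    · rintro ⟨x, hx, rfl⟩
      refine ⟨x, hx, ?_⟩
      simp only [φ]
      rw [hee]
      simp only [inner_proj u v x hvm, inner_proj u a x ham]
    · rintro ⟨x, hx, hxb⟩
      refine ⟨x, hx, ?_⟩
      apply e.injective
      rw [← hxb, hee]
      simp only [φ]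
      simp only [inner_proj u v x hvm, inner_proj u a x ham]
  rw [hshadow, he.measure_preimage_equiv, Measure.volume_eq_prod, Measure.prod_apply hQm]
  let L : ℝ → ENNReal := fun t => volume (Prod.mk t ⁻¹' Q)
  have hLm : Measurable L := measurable_measure_prodMk_left hQm
  -- slices are contained in intervals determined by extreme points
  have hslice : ∀ t, t₀ - T / 2 ≤ t → t ≤ t₀ + T / 2 → ∃ x₁ ∈ K, ∃ x₂ ∈ K,
      inner ℝ x₁ v = t ∧ inner ℝ x₂ v = t ∧ inner ℝ x₂ a ≤ inner ℝ x₁ a ∧
      L t ≤ ENNReal.ofReal (inner ℝ x₁ a - inner ℝ x₂ a) := by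
    intro t ht1 ht2
    set lam : ℝ := (t - (t₀ - T / 2)) / T with hlam
    have hl0 : 0 ≤ lam := div_nonneg (by linarith) hT.le
    have hl1 : lam ≤ 1 := by
      rw [hlam, div_le_one hT]; linarith
    have hne : (K ∩ {x | inner ℝ x v = t}).Nonempty := by
      refine ⟨(1 - lam) • xb + lam • xt, hKv hxb hxt (by linarith) hl0 (by ring), ?_⟩
      show inner ℝ ((1 - lam) • xb + lam • xt) v = t
      rw [inner_add_left, inner_smul_left, inner_smul_left, hb, ht]
      simp only [conj_trivial]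
      have : lam * T = t - (t₀ - T / 2) := by
        rw [hlam]; field_simp
      nlinarith
    have hsc : IsCompact (K ∩ {x | inner ℝ x v = t}) :=
      hKc.inter_right (isClosed_eq (by fun_prop) continuous_const)
    have hcf : ContinuousOn (fun x : E3 => inner ℝ x a) (K ∩ {x | inner ℝ x v = t}) :=
      Continuous.continuousOn (by fun_prop)
    obtain ⟨x₁, hx₁, hmax⟩ := hsc.exists_isMaxOn hne hcf
    obtain ⟨x₂, hx₂, hmin⟩ := hsc.exists_isMinOn hne hcf
    refine ⟨x₁, hx₁.1, x₂, hx₂.1, hx₁.2, hx₂.2, hmax hx₂, ?_⟩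
    have hsub : Prod.mk t ⁻¹' Q ⊆ Icc (inner ℝ x₂ a) (inner ℝ x₁ a) := by
      rintro r ⟨x, hx, hxr⟩
      have h1 : inner ℝ x v = t := congrArg Prod.fst hxr
      have h2 : inner ℝ x a = r := congrArg Prod.snd hxr
      have hmem : x ∈ K ∩ {x | inner ℝ x v = t} := ⟨hx, h1⟩
      rw [← h2]
      exact ⟨hmin hmem, hmax hmem⟩
    calc L t ≤ volume (Icc (inner ℝ x₂ a) (inner ℝ x₁ a)) := measure_mono hsub
      _ = ENNReal.ofReal (inner ℝ x₁ a - inner ℝ x₂ a) := Real.volume_Icc
  have hpair : ∀ t, t ∈ Icc (t₀ - T / 2) (t₀ + T / 2) →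
      L t + L (2 * t₀ - t) ≤ ENNReal.ofReal (2 * ω) := by
    rintro t ⟨ht1, ht2⟩
    obtain ⟨x₁, hx₁, x₂, hx₂, hx₁t, hx₂t, hx12, hLx⟩ := hslice t ht1 ht2
    obtain ⟨y₁, hy₁, y₂, hy₂, hy₁t, hy₂t, hy12, hLy⟩ :=
      hslice (2 * t₀ - t) (by linarith) (by linarith)
    have hm₁ : (1 / 2 : ℝ) • x₁ + (1 / 2 : ℝ) • y₁ ∈ K :=
      hKv hx₁ hy₁ (by norm_num) (by norm_num) (by norm_num)
    have hm₂ : (1 / 2 : ℝ) • x₂ + (1 / 2 : ℝ) • y₂ ∈ K :=
      hKv hx₂ hy₂ (by norm_num) (by norm_num) (by norm_num)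
    have hh₁ : inner ℝ ((1 / 2 : ℝ) • x₁ + (1 / 2 : ℝ) • y₁) v = t₀ := by
      rw [inner_add_left, inner_smul_left, inner_smul_left, hx₁t, hy₁t]
      simp only [conj_trivial]; ring
    have hh₂ : inner ℝ ((1 / 2 : ℝ) • x₂ + (1 / 2 : ℝ) • y₂) v = t₀ := by
      rw [inner_add_left, inner_smul_left, inner_smul_left, hx₂t, hy₂t]
      simp only [conj_trivial]; ring
    have hbound := hω _ hm₁ _ hm₂ hh₁ hh₂
    rw [inner_sub_left, inner_add_left, inner_add_left, inner_smul_left, inner_smul_left,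
      inner_smul_left, inner_smul_left] at hbound
    simp only [conj_trivial] at hbound
    calc L t + L (2 * t₀ - t)
        ≤ ENNReal.ofReal (inner ℝ x₁ a - inner ℝ x₂ a)
          + ENNReal.ofReal (inner ℝ y₁ a - inner ℝ y₂ a) := add_le_add hLx hLy
      _ = ENNReal.ofReal ((inner ℝ x₁ a - inner ℝ x₂ a) + (inner ℝ y₁ a - inner ℝ y₂ a)) :=
          (ENNReal.ofReal_add (by linarith) (by linarith)).symm
      _ ≤ ENNReal.ofReal (2 * ω) := ENNReal.ofReal_le_ofReal (by linarith)
  have hzero : ∀ t, t ∉ Icc (t₀ - T / 2) (t₀ + T / 2) → L t = 0 := by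
    intro t ht'
    have : Prod.mk t ⁻¹' Q = ∅ := by
      ext r
      simp only [Set.mem_preimage, Set.mem_empty_iff_false, iff_false]
      rintro ⟨x, hx, hxr⟩
      have h1 : inner ℝ x v = t := congrArg Prod.fst hxr
      apply ht'
      rw [← h1]
      exact hrange x hx
    simp [L, this]
  have hle : ∀ t, L t + L (2 * t₀ - t)
      ≤ (Icc (t₀ - T / 2) (t₀ + T / 2)).indicator (fun _ => ENNReal.ofReal (2 * ω)) t := by
    intro t
    by_cases htI : t ∈ Icc (t₀ - T / 2) (t₀ + T / 2)
    · rw [indicator_of_mem htI]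
      exact hpair t htI
    · have h' : 2 * t₀ - t ∉ Icc (t₀ - T / 2) (t₀ + T / 2) := by
        rintro ⟨h1, h2⟩
        exact htI ⟨by linarith, by linarith⟩
      rw [hzero t htI, hzero _ h']
      simp
  have hsym : ∫⁻ t, L (2 * t₀ - t) = ∫⁻ t, L t := lintegral_sub_left_eq_self L (2 * t₀)
  have hadd : (∫⁻ t, L t) + (∫⁻ t, L (2 * t₀ - t)) = ∫⁻ t, (L t + L (2 * t₀ - t)) :=
    (lintegral_add_left hLm _).symm
  have htotal : (∫⁻ t, L t) + (∫⁻ t, L t) ≤ ENNReal.ofReal (2 * ω) * ENNReal.ofReal T := by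
    calc (∫⁻ t, L t) + (∫⁻ t, L t) = (∫⁻ t, L t) + (∫⁻ t, L (2 * t₀ - t)) := by rw [hsym]
      _ = ∫⁻ t, (L t + L (2 * t₀ - t)) := hadd
      _ ≤ ∫⁻ t, (Icc (t₀ - T / 2) (t₀ + T / 2)).indicator
            (fun _ => ENNReal.ofReal (2 * ω)) t := lintegral_mono hle
      _ = ENNReal.ofReal (2 * ω) * volume (Icc (t₀ - T / 2) (t₀ + T / 2)) :=
          lintegral_indicator_const measurableSet_Icc _
      _ = ENNReal.ofReal (2 * ω) * ENNReal.ofReal T := by
          rw [Real.volume_Icc]
          congr 2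
          ring
  have hfin : ENNReal.ofReal (2 * ω) * ENNReal.ofReal T ≠ ⊤ :=
    ENNReal.mul_ne_top ENNReal.ofReal_ne_top ENNReal.ofReal_ne_top
  have hLfin : ∫⁻ t, L t ≠ ⊤ := by
    intro h
    rw [h] at htotal
    simp only [add_top, top_le_iff] at htotal
    exact hfin htotal
  -- conclude in the reals
  have h2 : 2 * (∫⁻ t, L t).toReal ≤ 2 * (T * ω) ∨ (2 : ℝ) * (T * ω) < 0 := by
    by_cases hω0 : 0 ≤ ω
    · left
      have h3 := ENNReal.toReal_mono hfin htotal
      rw [ENNReal.toReal_add hLfin hLfin, ENNReal.toReal_mul,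
        ENNReal.toReal_ofReal (by positivity), ENNReal.toReal_ofReal hT.le] at h3
      nlinarith
    · right
      have : ω < 0 := not_le.mp hω0
      nlinarith
  rcases h2 with h2 | h2
  · have h4 : (∫⁻ t, L t).toReal ≤ T * ω := by linarith
    calc ∫⁻ t, L t = ENNReal.ofReal (∫⁻ t, L t).toReal := (ENNReal.ofReal_toReal hLfin).symm
      _ ≤ ENNReal.ofReal (T * ω) := ENNReal.ofReal_le_ofReal h4
  · -- negative bound is impossible: the middle section is nonempty
    exfalso
    have hne : ∃ x ∈ K, inner ℝ x v = t₀ := by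
      refine ⟨(1 / 2 : ℝ) • xb + (1 / 2 : ℝ) • xt, hKv hxb hxt (by norm_num) (by norm_num)
        (by norm_num), ?_⟩
      rw [inner_add_left, inner_smul_left, inner_smul_left, hb, ht]
      simp only [conj_trivial]; ring
    obtain ⟨x, hx, hxt'⟩ := hne
    have h5 := hω x hx x hx hxt' hxt'
    simp only [sub_self, inner_zero_left] at h5
    nlinarith

/-- The slices of a base in the chart of a plane: their outer measures integrate
to the outer measure of the base, after passing to a measurable hull. -/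
theorem base_slices (u v a : E3) (hu : ‖u‖ = 1) (hv : ‖v‖ = 1) (ha : ‖a‖ = 1)
    (huv : inner ℝ u v = 0) (hua : inner ℝ u a = 0) (hva : inner ℝ v a = 0)
    (B : Set (perpPlane u)) :
    ∃ S : ℝ → Set ℝ, Measurable (fun t => volume (S t)) ∧ ∫⁻ t, volume (S t) = volume B ∧
      ∀ b ∈ B, inner ℝ (b : E3) a ∈ S (inner ℝ (b : E3) v) := by
  obtain ⟨e, he, hee⟩ := exists_chart u v a hu hv ha huv hua hva
  let B' := toMeasurable volume B
  have hB'm : MeasurableSet B' := measurableSet_toMeasurable _ _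
  let Q : Set (ℝ × ℝ) := e.symm ⁻¹' B'
  have hQm : MeasurableSet Q := e.symm.measurable hB'm
  refine ⟨fun t => Prod.mk t ⁻¹' Q, measurable_measure_prodMk_left hQm, ?_, ?_⟩
  · have h1 : volume Q = volume B' := he.symm.measure_preimage_equiv B'
    have h2 : volume Q = ∫⁻ t, volume (Prod.mk t ⁻¹' Q) := by
      rw [Measure.volume_eq_prod, Measure.prod_apply hQm]
    rw [← h2, h1]
    exact measure_toMeasurable B
  · intro b hb
    show (inner ℝ (b : E3) v, inner ℝ (b : E3) a) ∈ Q
    rw [← hee b]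
    show e.symm (e b) ∈ B'
    rw [e.symm_apply_apply]
    exact subset_toMeasurable _ _ hb

/-- Bang's theorem applied to one section of the body by a plane perpendicular to `v`. -/
theorem section_bang (K : Set E3) (hKc : IsCompact K) (hKv : Convex ℝ K) (v : E3) (hv : ‖v‖ = 1)
    (t : ℝ) (hne : ∃ x ∈ K, inner ℝ x v = t) {ι : Type*} [Fintype ι] (n : ι → E3)
    (hn : ∀ i, ‖n i‖ = 1) (hnv : ∀ i, inner ℝ (n i) v = 0) (S : ι → Set ℝ)
    (hcov : ∀ x ∈ K, inner ℝ x v = t → ∃ i, inner ℝ x (n i) ∈ S i) (w : ℝ)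
    (hw : ∀ a : E3, ‖a‖ = 1 → inner ℝ a v = 0 →
      ∃ x ∈ K, ∃ y ∈ K, inner ℝ x v = t ∧ inner ℝ y v = t ∧ w ≤ inner ℝ (x - y) a) :
    ENNReal.ofReal w ≤ ∑ i, volume (S i) := by
  classical
  have hvv : inner ℝ v v = 1 := by
    rw [real_inner_self_eq_norm_sq, hv]; norm_num
  have hmem : ∀ x : E3, inner ℝ x v = t → x - t • v ∈ perpPlane v := by
    intro x hx
    apply Submodule.mem_orthogonal_singleton_iff_inner_right.mpr
    rw [inner_sub_right, inner_smul_right, real_inner_comm, hx, hvv]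
    ring
  have hnmem : ∀ i, n i ∈ perpPlane v := fun i =>
    Submodule.mem_orthogonal_singleton_iff_inner_right.mpr (by rw [real_inner_comm]; exact hnv i)
  let C : Set (perpPlane v) := {y | (y : E3) + t • v ∈ K}
  have hCconv : Convex ℝ C := by
    intro y₁ hy₁ y₂ hy₂ α β hα hβ hαβ
    show ((α • y₁ + β • y₂ : perpPlane v) : E3) + t • v ∈ K
    have h := hKv hy₁ hy₂ hα hβ hαβ
    convert h using 1
    simp only [Submodule.coe_add, Submodule.coe_smul, smul_add]
    have : t • v = α • t • v + β • t • v := by rw [← add_smul, hαβ, one_smul]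
    nth_rewrite 1 [this]
    abel
  have hCcomp : IsCompact C := by
    apply Metric.isCompact_of_isClosed_isBounded
    · exact hKc.isClosed.preimage (by fun_prop)
    · obtain ⟨R, hR⟩ := hKc.isBounded.exists_norm_le
      refine (Metric.isBounded_iff_subset_closedBall 0).mpr ⟨R + ‖t • v‖, ?_⟩
      intro y hy
      have h1 := hR _ hy
      have h2 : ‖(y : E3)‖ ≤ ‖(y : E3) + t • v‖ + ‖t • v‖ := by
        have := norm_sub_le ((y : E3) + t • v) (t • v)
        simpa using this
      simp only [Metric.mem_closedBall, dist_zero_right]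
      have h3 : ‖y‖ = ‖(y : E3)‖ := rfl
      linarith
  obtain ⟨x₀, hx₀, hx₀t⟩ := hne
  have hCne : C.Nonempty := ⟨⟨x₀ - t • v, hmem x₀ hx₀t⟩, by simpa [C] using hx₀⟩
  refine bang_sets hCcomp hCconv hCne (fun i => (⟨n i, hnmem i⟩ : perpPlane v))
    (fun i => by simpa using hn i) S ?_ w ?_
  · intro y hy
    have hyv : inner ℝ (y : E3) v = 0 := by
      have := Submodule.mem_orthogonal_singleton_iff_inner_right.mp y.2
      rwa [real_inner_comm] at this
    have h1 : inner ℝ ((y : E3) + t • v) v = t := by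
      rw [inner_add_left, inner_smul_left, hyv, hvv]
      simp
    obtain ⟨i, hi⟩ := hcov _ hy h1
    refine ⟨i, ?_⟩
    have h2 : inner ℝ ((y : E3) + t • v) (n i) = inner ℝ y (⟨n i, hnmem i⟩ : perpPlane v) := by
      rw [inner_add_left, inner_smul_left, real_inner_comm (n i) v, hnv i, Submodule.coe_inner]
      simp
    rwa [h2] at hi
  · intro a ha
    have hav : inner ℝ (a : E3) v = 0 := by
      have := Submodule.mem_orthogonal_singleton_iff_inner_right.mp a.2
      rwa [real_inner_comm] at this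
    obtain ⟨x, hx, y, hy, hxt, hyt, hxy⟩ := hw a (by simpa using ha) hav
    refine ⟨⟨x - t • v, hmem x hxt⟩, by simpa [C] using hx, ⟨y - t • v, hmem y hyt⟩,
      by simpa [C] using hy, ?_⟩
    have : inner ℝ ((⟨x - t • v, hmem x hxt⟩ : perpPlane v) - ⟨y - t • v, hmem y hyt⟩) a
        = inner ℝ (x - y) (a : E3) := by
      rw [Submodule.coe_inner]
      simp
    rw [this]
    exact hxy

/-- The integral of the triangular profile. -/
theorem tri_lintegral (t₀ T w : ℝ) (hT : 0 < T) (hw : 0 ≤ w) :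
    ENNReal.ofReal (w * T / 2) ≤ ∫⁻ t, (Icc (t₀ - T / 2) (t₀ + T / 2)).indicator
      (fun t => ENNReal.ofReal (w * (1 - 2 * |t - t₀| / T))) t := by
  rw [lintegral_indicator measurableSet_Icc]
  have hI : ∫ t in (t₀ - T / 2)..(t₀ + T / 2), w * (1 - 2 * |t - t₀| / T) = w * T / 2 := by
    have h1 : ∫ t in (t₀ - T / 2)..t₀, w * (1 - 2 * |t - t₀| / T)
        = ∫ t in (t₀ - T / 2)..t₀, (w + w * (2 / T) * (t - t₀)) := by
      apply intervalIntegral.integral_congr
      intro t ht
      rw [uIcc_of_le (by linarith)] at ht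
      have : |t - t₀| = t₀ - t := by
        rw [abs_of_nonpos (by linarith [ht.2])]; ring
      simp only [this]
      field_simp
      ring
    have h2 : ∫ t in t₀..(t₀ + T / 2), w * (1 - 2 * |t - t₀| / T)
        = ∫ t in t₀..(t₀ + T / 2), (w - w * (2 / T) * (t - t₀)) := by
      apply intervalIntegral.integral_congr
      intro t ht
      rw [uIcc_of_le (by linarith)] at ht
      have : |t - t₀| = t - t₀ := abs_of_nonneg (by linarith [ht.1])
      simp only [this]
      field_simp
    have hint : ∀ a b, IntervalIntegrable (fun t => w * (1 - 2 * |t - t₀| / T)) volume a b := by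
      intro a b
      apply Continuous.intervalIntegrable
      fun_prop
    rw [← intervalIntegral.integral_add_adjacent_intervals (hint _ _) (hint _ _), h1, h2]
    have h3 : ∫ t in (t₀ - T / 2)..t₀, (w + w * (2 / T) * (t - t₀)) = w * T / 2 - w * T / 4 := by
      have : ∀ t ∈ uIcc (t₀ - T / 2) t₀, HasDerivAt (fun t => w * t + w * (2 / T) * ((t - t₀) ^ 2 / 2))
          (w + w * (2 / T) * (t - t₀)) t := by
        intro t _
        have h1 : HasDerivAt (fun t => (t - t₀) ^ 2 / 2) (t - t₀) t := by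
          have := (((hasDerivAt_id' t).sub_const t₀).fun_pow 2).div_const 2
          refine this.congr_deriv ?_
          simp
        exact ((hasDerivAt_id' t).const_mul w |>.fun_add (h1.const_mul (w * (2 / T)))).congr_deriv (by ring)
      rw [intervalIntegral.integral_eq_sub_of_hasDerivAt this (Continuous.intervalIntegrable (by fun_prop) _ _)]
      field_simp
      ring
    have h4 : ∫ t in t₀..(t₀ + T / 2), (w - w * (2 / T) * (t - t₀)) = w * T / 2 - w * T / 4 := by
      have : ∀ t ∈ uIcc t₀ (t₀ + T / 2), HasDerivAt (fun t => w * t - w * (2 / T) * ((t - t₀) ^ 2 / 2))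
          (w - w * (2 / T) * (t - t₀)) t := by
        intro t _
        have h1 : HasDerivAt (fun t => (t - t₀) ^ 2 / 2) (t - t₀) t := by
          have := (((hasDerivAt_id' t).sub_const t₀).fun_pow 2).div_const 2
          refine this.congr_deriv ?_
          simp
        exact ((hasDerivAt_id' t).const_mul w |>.fun_sub (h1.const_mul (w * (2 / T)))).congr_deriv (by ring)
      rw [intervalIntegral.integral_eq_sub_of_hasDerivAt this (Continuous.intervalIntegrable (by fun_prop) _ _)]
      field_simp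
      ring
    rw [h3, h4]
    ring
  rw [← hI, intervalIntegral.integral_of_le (by linarith)]
  have hle : ∀ t ∈ Ioc (t₀ - T / 2) (t₀ + T / 2), 0 ≤ w * (1 - 2 * |t - t₀| / T) := by
    intro t ht
    apply mul_nonneg hw
    have : |t - t₀| ≤ T / 2 := by
      rw [abs_le]; constructor <;> linarith [ht.1, ht.2]
    have h5 : 2 * |t - t₀| / T ≤ 1 := by
      rw [div_le_one hT]; linarith
    linarith
  rw [ofReal_integral_eq_lintegral_ofReal]
  · apply lintegral_mono_set
    exact Ioc_subset_Icc_self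
  · apply Continuous.integrableOn_Ioc
    fun_prop
  · filter_upwards [ae_restrict_mem measurableSet_Ioc] with t ht
    exact hle t ht

end Vale.Agent.P243
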