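import Vale.Agent.P243.Frames
import Vale.Agent.P243.Core4

/-!
Transfer of the core inequality from coordinates to Euclidean three space.
-/

open MeasureTheory Set
open scoped ENNReal Pointwise

namespace Vale.Agent.P243

open _root_.Vale.Agent.P243.Core

/-- The measure preserving identification of three space with the coordinates given by an
orthonormal triple, with the polarised Parseval identity. -/
lemma exists_chart3 (a b u : E3) (ha : ‖a‖ = 1) (hb : ‖b‖ = 1) (hu : ‖u‖ = 1)
    (hab : inner ℝ a b = 0) (hau : inner ℝ a u = 0) (hbu : inner ℝ b u = 0) :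
    ∃ e : E3 ≃ᵐ W, MeasurePreserving e volume volume ∧
      (∀ x, e x = ((inner ℝ x a, inner ℝ x b), inner ℝ x u)) ∧
      ∀ x y : E3, inner ℝ x y = inner ℝ x a * inner ℝ y a + inner ℝ x b * inner ℝ y b
        + inner ℝ x u * inner ℝ y u := by
  classical
  let f : Fin 3 → E3 := ![a, b, u]
  have hf : Orthonormal ℝ ((Set.univ : Set (Fin 3)).domRestrict f) := by
    rw [orthonormal_iff_ite]
    rintro ⟨i, _⟩ ⟨j, _⟩
    fin_cases i <;> fin_cases j <;>
      simp [Set.domRestrict, f, ha, hb, hu, hab, hau, hbu, real_inner_comm]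
  obtain ⟨B, hB⟩ := hf.exists_orthonormalBasis_extension_of_card_eq (by simp)
  have hB0 : B 0 = a := by simpa [f] using hB 0 (by simp)
  have hB1 : B 1 = b := by simpa [f] using hB 1 (by simp)
  have hB2 : B 2 = u := by simpa [f] using hB 2 (by simp)
  let e₁ : (Fin 3 → ℝ) ≃ᵐ ℝ × (Fin 2 → ℝ) :=
    MeasurableEquiv.piFinSuccAbove (fun _ => ℝ) (Fin.last 2)
  let e₂ : ℝ × (Fin 2 → ℝ) ≃ᵐ (Fin 2 → ℝ) × ℝ := MeasurableEquiv.prodComm
  let e₃ : (Fin 2 → ℝ) × ℝ ≃ᵐ (ℝ × ℝ) × ℝ :=
    MeasurableEquiv.prodCongr MeasurableEquiv.finTwoArrow (MeasurableEquiv.refl ℝ)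
  let e : E3 ≃ᵐ W :=
    (B.repr.toHomeomorph.toMeasurableEquiv).trans
      (((MeasurableEquiv.toLp 2 (Fin 3 → ℝ)).symm).trans (e₁.trans (e₂.trans e₃)))
  refine ⟨e, ?_, ?_, ?_⟩
  · have h1 := B.measurePreserving_repr
    have h2 := EuclideanSpace.volume_preserving_symm_measurableEquiv_toLp (Fin 3)
    have h3 : MeasurePreserving e₁ volume volume :=
      volume_preserving_piFinSuccAbove (fun _ => ℝ) (Fin.last 2)
    have h4 : MeasurePreserving e₂ volume volume := Measure.measurePreserving_swap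
    have h5 : MeasurePreserving e₃ volume volume :=
      (volume_preserving_finTwoArrow ℝ).prod (MeasurePreserving.id _)
    exact h5.comp (h4.comp (h3.comp (h2.comp h1)))
  · intro x
    have h0 : (B.repr x) 0 = inner ℝ x a := by
      rw [OrthonormalBasis.repr_apply_apply, hB0, real_inner_comm]
    have h1 : (B.repr x) 1 = inner ℝ x b := by
      rw [OrthonormalBasis.repr_apply_apply, hB1, real_inner_comm]
    have h2 : (B.repr x) 2 = inner ℝ x u := by
      rw [OrthonormalBasis.repr_apply_apply, hB2, real_inner_comm]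
    ext
    · exact h0
    · exact h1
    · exact h2
  · intro x y
    have := B.sum_inner_mul_inner x y
    rw [Fin.sum_univ_three, hB0, hB1, hB2] at this
    rw [← this, real_inner_comm y a, real_inner_comm y b, real_inner_comm y u]

/-- A compact set of diameter at most `X` meets a cylinder in volume at most `X` times the base. -/
lemma cyl_test {S : Set E3} (hS : IsCompact S) {X : ℝ} (hdS : ∀ x ∈ S, ∀ x' ∈ S, ‖x - x'‖ ≤ X)
    {a b : E3} (hab : IsOrthoPair a b) (B : Set (ℝ × ℝ)) :
    volume (S ∩ {x | planeCoords a b x ∈ B}) ≤ ENNReal.ofReal X * volume B := by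
  obtain ⟨u, hu, hua, hub⟩ := exists_third a b hab.1 hab.2.1 hab.2.2
  obtain ⟨e, he, hee, -⟩ := exists_chart3 a b u hab.1 hab.2.1 hu hab.2.2
    (by rw [real_inner_comm]; exact hua) (by rw [real_inner_comm]; exact hub)
  let B' := toMeasurable volume B
  have hB' : MeasurableSet B' := measurableSet_toMeasurable _ _
  have hBB : volume B' = volume B := measure_toMeasurable B
  let T : Set W := e.symm ⁻¹' S ∩ Prod.fst ⁻¹' B'
  have hT : MeasurableSet T :=
    (e.symm.measurable hS.isClosed.measurableSet).inter (measurable_fst hB')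
  have hsub : S ∩ {x | planeCoords a b x ∈ B} ⊆ e ⁻¹' T := by
    rintro x ⟨hx, hxB⟩
    refine ⟨by simpa using hx, ?_⟩
    show (e x).1 ∈ B'
    rw [hee]
    exact subset_toMeasurable _ _ hxB
  calc volume (S ∩ {x | planeCoords a b x ∈ B}) ≤ volume (e ⁻¹' T) := measure_mono hsub
    _ = volume T := he.measure_preimage_equiv T
    _ = ∫⁻ y, volume (Prod.mk y ⁻¹' T) :=
        Measure.prod_apply (μ := (volume : Measure Y)) (ν := (volume : Measure ℝ)) hT
    _ ≤ ∫⁻ y, B'.indicator (fun _ => ENNReal.ofReal X) y := by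
        apply lintegral_mono
        intro y
        by_cases hy : y ∈ B'
        · rw [indicator_of_mem hy]
          refine (Real.volume_le_diam _).trans ?_
          apply Metric.ediam_le
          intro t ht t' ht'
          have h1 : e.symm (y, t) ∈ S := ht.1
          have h2 : e.symm (y, t') ∈ S := ht'.1
          have h3 : inner ℝ (e.symm (y, t)) u = t := by
            have := hee (e.symm (y, t))
            rw [MeasurableEquiv.apply_symm_apply] at this
            exact (congrArg Prod.snd this).symm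
          have h4 : inner ℝ (e.symm (y, t')) u = t' := by
            have := hee (e.symm (y, t'))
            rw [MeasurableEquiv.apply_symm_apply] at this
            exact (congrArg Prod.snd this).symm
          have h5 : |t - t'| ≤ X := by
            have h6 := abs_real_inner_le_norm (e.symm (y, t) - e.symm (y, t')) u
            rw [inner_sub_left, h3, h4, hu, mul_one] at h6
            exact h6.trans (hdS _ h1 _ h2)
          rw [edist_dist, Real.dist_eq]
          exact ENNReal.ofReal_le_ofReal h5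
        · have : Prod.mk y ⁻¹' T = ∅ := by
            ext t
            simp only [mem_preimage, mem_empty_iff_false, iff_false]
            exact fun h => hy h.2
          show volume (Prod.mk y ⁻¹' T) ≤ _
          rw [this, measure_empty]
          exact zero_le
    _ = ENNReal.ofReal X * volume B := by
        rw [lintegral_indicator_const hB', hBB]

/-- A compact set of diameter at most `X` contained in a union of cylinders. -/
lemma cyl_test_sum {S : Set E3} (hS : IsCompact S) {X : ℝ}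
    (hdS : ∀ x ∈ S, ∀ x' ∈ S, ‖x - x'‖ ≤ X) {ι : Type*} [Fintype ι] {a b : ι → E3}
    (hab : ∀ i, IsOrthoPair (a i) (b i)) (B : ι → Set (ℝ × ℝ))
    (hcover : S ⊆ ⋃ i, {x | planeCoords (a i) (b i) x ∈ B i}) :
    volume S ≤ ENNReal.ofReal X * ∑ i, volume (B i) := by
  have h1 : S ⊆ ⋃ i, (S ∩ {x | planeCoords (a i) (b i) x ∈ B i}) := by
    intro x hx
    obtain ⟨i, hi⟩ := mem_iUnion.mp (hcover hx)
    exact mem_iUnion.mpr ⟨i, hx, hi⟩
  calc volume S ≤ volume (⋃ i, (S ∩ {x | planeCoords (a i) (b i) x ∈ B i})) := measure_mono h1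
    _ ≤ ∑ i, volume (S ∩ {x | planeCoords (a i) (b i) x ∈ B i}) := measure_iUnion_fintype_le _ _
    _ ≤ ∑ i, ENNReal.ofReal X * volume (B i) :=
        Finset.sum_le_sum (fun i _ => cyl_test hS hdS (hab i) (B i))
    _ = _ := by rw [Finset.mul_sum]

/-- There is a unit vector perpendicular to a given unit vector. -/
lemma exists_perp (u : E3) (hu : ‖u‖ = 1) : ∃ a : E3, ‖a‖ = 1 ∧ inner ℝ a u = 0 := by
  classical
  let f : Fin 3 → E3 := ![u, 0, 0]
  let s : Set (Fin 3) := {0}
  have hf : Orthonormal ℝ (s.domRestrict f) := by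
    rw [orthonormal_iff_ite]
    rintro ⟨i, hi⟩ ⟨j, hj⟩
    simp only [s, Set.mem_singleton_iff] at hi hj
    subst hi hj
    simp [Set.domRestrict, f, hu]
  obtain ⟨b, hb⟩ := hf.exists_orthonormalBasis_extension_of_card_eq (by simp)
  refine ⟨b 1, b.orthonormal.1 1, ?_⟩
  have h0 : b 0 = u := by simpa [f, s] using hb 0 (by simp [s])
  rw [← h0]
  exact b.orthonormal.2 (by decide)

/-- An orthonormal pair perpendicular to a nonzero vector. -/
lemma exists_pair_perp (w : E3) (hw : w ≠ 0) :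
    ∃ a b : E3, IsOrthoPair a b ∧ inner ℝ w a = 0 ∧ inner ℝ w b = 0 := by
  have hpos : 0 < ‖w‖ := norm_pos_iff.mpr hw
  obtain ⟨u, hu⟩ : ∃ u : E3, u = ‖w‖⁻¹ • w := ⟨_, rfl⟩
  have hu1 : ‖u‖ = 1 := by
    rw [hu, norm_smul, norm_inv, norm_norm]
    field_simp
  have hwu : w = ‖w‖ • u := by
    rw [hu, smul_smul, mul_inv_cancel₀ hpos.ne', one_smul]
  obtain ⟨a, ha, hau⟩ := exists_perp u hu1
  obtain ⟨b, hb, hba, hbu⟩ := exists_third a u ha hu1 hau
  refine ⟨a, b, ⟨ha, hb, by rw [real_inner_comm]; exact hba⟩, ?_, ?_⟩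
  · rw [hwu, inner_smul_left, real_inner_comm, hau]; simp
  · rw [hwu, inner_smul_left, real_inner_comm, hbu]; simp

/-- The normal form map. -/
noncomputable def nf (p : E3) (D : ℝ) (χ : E3 → W) (x : E3) : W := (1 / D) • χ (x - p)

lemma volume_smul_W (r : ℝ) (s : Set W) :
    volume (r • s) = ENNReal.ofReal (|r| ^ 3) * volume s := by
  have : (volume : Measure W).IsAddHaarMeasure := by
    rw [Measure.volume_eq_prod]
    infer_instance
  rw [Measure.addHaar_smul]
  have : Module.finrank ℝ W = 3 := by simp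
  rw [this, abs_pow]

lemma volume_nf_image (p : E3) {D : ℝ} (hD : 0 < D) {χ : E3 ≃ᵐ W}
    (hχ : MeasurePreserving χ volume volume) (S : Set E3) :
    volume (nf p D χ '' S) = ENNReal.ofReal (1 / D ^ 3) * volume S := by
  have h1 : nf p D χ '' S = (1 / D) • (χ '' ((fun x => x + -p) '' S)) := by
    rw [← image_smul, image_image, image_image]
    rfl
  rw [h1, volume_smul_W, abs_of_pos (by positivity), image_add_right, χ.image_eq_preimage_symm,
    hχ.symm.measure_preimage_equiv, neg_neg, measure_preimage_add_right]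
  congr 2
  rw [div_pow, one_pow]

section Normal

variable {p : E3} {D : ℝ} {e₁ e₂ e : E3} {χ : E3 ≃ᵐ W}

lemma nf_apply (hχe : ∀ x, χ x = ((inner ℝ x e₁, inner ℝ x e₂), inner ℝ x e)) (x : E3) :
    nf p D χ x = ((inner ℝ (x - p) e₁ / D, inner ℝ (x - p) e₂ / D), inner ℝ (x - p) e / D) := by
  unfold nf
  rw [hχe]
  ext <;> simp <;> ring

lemma d2_nf (hD : 0 < D) (hχe : ∀ x, χ x = ((inner ℝ x e₁, inner ℝ x e₂), inner ℝ x e))
    (hP : ∀ x y : E3, inner ℝ x y = inner ℝ x e₁ * inner ℝ y e₁ + inner ℝ x e₂ * inner ℝ y e₂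
        + inner ℝ x e * inner ℝ y e) (x x' : E3) :
    d2 (nf p D χ x) (nf p D χ x') = ‖x - x'‖ ^ 2 / D ^ 2 := by
  rw [nf_apply hχe, nf_apply hχe, ← real_inner_self_eq_norm_sq, hP (x - x') (x - x')]
  have h1 : x - x' = (x - p) - (x' - p) := by abel
  rw [h1]
  simp only [d2, inner_sub_left]
  field_simp

lemma continuous_nf (hχe : ∀ x, χ x = ((inner ℝ x e₁, inner ℝ x e₂), inner ℝ x e)) :
    Continuous (nf p D χ) := by
  have : nf p D χ = fun x =>
      ((inner ℝ (x - p) e₁ / D, inner ℝ (x - p) e₂ / D), inner ℝ (x - p) e / D) := by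
    funext x
    exact nf_apply hχe x
  rw [this]
  fun_prop

lemma convex_nf_image (hχe : ∀ x, χ x = ((inner ℝ x e₁, inner ℝ x e₂), inner ℝ x e))
    {K : Set E3} (hK : Convex ℝ K) : Convex ℝ (nf p D χ '' K) := by
  rintro _ ⟨x, hx, rfl⟩ _ ⟨x', hx', rfl⟩ α β hα hβ hαβ
  refine ⟨α • x + β • x', hK hx hx' hα hβ hαβ, ?_⟩
  have h1 : α • x + β • x' - p = α • (x - p) + β • (x' - p) := by
    have : β = 1 - α := by linarith
    subst this
    simp only [smul_sub, sub_smul, one_smul]
    abel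
  rw [nf_apply hχe, nf_apply hχe, nf_apply hχe, h1]
  simp only [inner_add_left, inner_smul_left]
  ext <;> simp <;> ring

/-- The test hypothesis for the normal form. -/
lemma nf_tst {K : Set E3} (hKc : IsCompact K) (hD : 0 < D)
    (hχ : MeasurePreserving χ volume volume)
    (hχe : ∀ x, χ x = ((inner ℝ x e₁, inner ℝ x e₂), inner ℝ x e))
    (hP : ∀ x y : E3, inner ℝ x y = inner ℝ x e₁ * inner ℝ y e₁ + inner ℝ x e₂ * inner ℝ y e₂
        + inner ℝ x e * inner ℝ y e)
    {ι : Type*} [Fintype ι] {a b : ι → E3} (hab : ∀ i, IsOrthoPair (a i) (b i))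
    (B : ι → Set (ℝ × ℝ)) (hcover : K ⊆ ⋃ i, {x | planeCoords (a i) (b i) x ∈ B i})
    (hfin : ∑ i, volume (B i) ≠ ⊤) :
    Tst (nf p D χ '' K) ((∑ i, volume (B i)).toReal / D ^ 2) := by
  intro Sh hShc hShsub X hX hd
  let S := K ∩ nf p D χ ⁻¹' Sh
  have hSc : IsCompact S := hKc.inter_right (hShc.isClosed.preimage (continuous_nf hχe))
  have hSimg : nf p D χ '' S = Sh := by
    ext w
    constructor
    · rintro ⟨x, hx, rfl⟩
      exact hx.2
    · intro hw
      obtain ⟨x, hx, rfl⟩ := hShsub hw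
      exact ⟨x, ⟨hx, hw⟩, rfl⟩
  have hdS : ∀ x ∈ S, ∀ x' ∈ S, ‖x - x'‖ ≤ X * D := by
    intro x hx x' hx'
    have h1 := hd _ hx.2 _ hx'.2
    rw [d2_nf hD hχe hP, div_le_iff₀ (by positivity), ← mul_pow] at h1
    exact (pow_le_pow_iff_left₀ (norm_nonneg _) (by positivity) two_ne_zero).mp h1
  have h1 := cyl_test_sum hSc hdS hab B (inter_subset_left.trans hcover)
  rw [← hSimg, volume_nf_image p hD hχ]
  calc ENNReal.ofReal (1 / D ^ 3) * volume S
      ≤ ENNReal.ofReal (1 / D ^ 3) * (ENNReal.ofReal (X * D) * ∑ i, volume (B i)) := by gcongr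
    _ = ENNReal.ofReal (X * ((∑ i, volume (B i)).toReal / D ^ 2)) := by
        conv_lhs => rw [← ENNReal.ofReal_toReal hfin]
        rw [← ENNReal.ofReal_mul (by positivity), ← ENNReal.ofReal_mul (by positivity)]
        congr 1
        field_simp

/-- The shadow hypothesis for the normal form. -/
lemma nf_shadow {K : Set E3} (hD : 0 < D) (he₁ : ‖e₁‖ = 1) (he₂ : ‖e₂‖ = 1) (he : ‖e‖ = 1)
    (h12 : inner ℝ e₁ e₂ = 0) (h1e : inner ℝ e₁ e = 0) (h2e : inner ℝ e₂ e = 0)
    (hχe : ∀ x, χ x = ((inner ℝ x e₁, inner ℝ x e₂), inner ℝ x e))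
    (hP : ∀ x y : E3, inner ℝ x y = inner ℝ x e₁ * inner ℝ y e₁ + inner ℝ x e₂ * inner ℝ y e₂
        + inner ℝ x e * inner ℝ y e) (v : Y) :
    minProjArea K ≤ ENNReal.ofReal (D ^ 2) *
      volume ((fun x : W => x.1 - x.2 • v) '' (nf p D χ '' K)) := by
  obtain ⟨w, hw⟩ : ∃ w : E3, w = v.1 • e₁ + v.2 • e₂ + e := ⟨_, rfl⟩
  have hwe : inner ℝ w e = 1 := by
    rw [hw, inner_add_left, inner_add_left, inner_smul_left, inner_smul_left, h1e, h2e,
      real_inner_self_eq_norm_sq, he]
    simp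
  have hw0 : w ≠ 0 := by
    rintro rfl
    simp at hwe
  obtain ⟨a, b, hab, hwa, hwb⟩ := exists_pair_perp w hw0
  obtain ⟨α, hα⟩ : ∃ α : ℝ, α = inner ℝ a e₁ := ⟨_, rfl⟩
  obtain ⟨β, hβ⟩ : ∃ β : ℝ, β = inner ℝ a e₂ := ⟨_, rfl⟩
  obtain ⟨γ, hγ⟩ : ∃ γ : ℝ, γ = inner ℝ b e₁ := ⟨_, rfl⟩
  obtain ⟨δ, hδ⟩ : ∃ δ : ℝ, δ = inner ℝ b e₂ := ⟨_, rfl⟩
  have hae : inner ℝ a e = -(v.1 * α) - v.2 * β := by
    have h := hwa
    rw [hw, inner_add_left, inner_add_left, inner_smul_left, inner_smul_left] at h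
    simp only [conj_trivial] at h
    rw [real_inner_comm a e₁, real_inner_comm a e₂, real_inner_comm a e] at *
    rw [hα, hβ]
    linarith
  have hbe : inner ℝ b e = -(v.1 * γ) - v.2 * δ := by
    have h := hwb
    rw [hw, inner_add_left, inner_add_left, inner_smul_left, inner_smul_left] at h
    simp only [conj_trivial] at h
    rw [real_inner_comm b e₁, real_inner_comm b e₂, real_inner_comm b e] at *
    rw [hγ, hδ]
    linarith
  -- the matrix and its determinant
  let L : Y →ₗ[ℝ] Y := Matrix.toLin (Module.Basis.finTwoProd ℝ) (Module.Basis.finTwoProd ℝ)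
    !![D * α, D * β; D * γ, D * δ]
  have hLapp : ∀ y : Y, L y = (D * α * y.1 + D * β * y.2, D * γ * y.1 + D * δ * y.2) := fun y =>
    Matrix.toLin_finTwoProd_apply _ _ _ _ y
  have hdet : LinearMap.det L = D ^ 2 * (α * δ - β * γ) := by
    simp only [L]
    rw [LinearMap.det_toLin, Matrix.det_fin_two_of]
    ring
  have hsmall : |α * δ - β * γ| ≤ 1 := by
    have ha1 : α ^ 2 + β ^ 2 ≤ 1 := by
      have h := hP a a
      rw [real_inner_self_eq_norm_sq, hab.1, ← hα, ← hβ] at h
      nlinarith [mul_self_nonneg (inner ℝ a e)]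
    have hb1 : γ ^ 2 + δ ^ 2 ≤ 1 := by
      have h := hP b b
      rw [real_inner_self_eq_norm_sq, hab.2.1, ← hγ, ← hδ] at h
      nlinarith [mul_self_nonneg (inner ℝ b e)]
    rw [abs_le_one_iff_mul_self_le_one]
    nlinarith [sq_nonneg (α * γ + β * δ), mul_nonneg (sub_nonneg.mpr ha1) (sub_nonneg.mpr hb1),
      sq_nonneg α, sq_nonneg β, sq_nonneg γ, sq_nonneg δ, 
      mul_nonneg (add_nonneg (sq_nonneg α) (sq_nonneg β)) (sub_nonneg.mpr hb1)]
  -- the identification of the projection
  obtain ⟨c, hc⟩ : ∃ c : Y, c = planeCoords a b p := ⟨_, rfl⟩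
  have hkey : ∀ x : E3, planeCoords a b x =
      c + L ((fun u : W => u.1 - u.2 • v) (nf p D χ x)) := by
    intro x
    have h1 : inner ℝ x a = inner ℝ p a + inner ℝ (x - p) a := by
      rw [inner_sub_left]; ring
    have h2 : inner ℝ x b = inner ℝ p b + inner ℝ (x - p) b := by
      rw [inner_sub_left]; ring
    have h3 := hP (x - p) a
    have h4 := hP (x - p) b
    rw [hae, ← hα, ← hβ] at h3
    rw [hbe, ← hγ, ← hδ] at h4
    rw [hLapp, nf_apply hχe, hc]
    ext
    · simp only [planeCoords, Prod.fst_add, Prod.fst_sub, Prod.smul_fst, smul_eq_mul,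
        Prod.snd_sub, Prod.smul_snd]
      rw [h1, h3]
      field_simp
      ring
    · simp only [planeCoords, Prod.snd_add, Prod.fst_sub, Prod.smul_fst, smul_eq_mul,
        Prod.snd_sub, Prod.smul_snd]
      rw [h2, h4]
      field_simp
      ring
  have himg : planeCoords a b '' K = (fun y => c + y) '' (L '' ((fun u : W => u.1 - u.2 • v) ''
      (nf p D χ '' K))) := by
    rw [image_image, image_image, image_image]
    exact image_congr (fun x _ => hkey x)
  have hle : minProjArea K ≤ volume (planeCoords a b '' K) :=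
    iInf_le (fun q : {q : E3 × E3 // IsOrthoPair q.1 q.2} => volume (planeCoords q.1.1 q.1.2 '' K))
      ⟨(a, b), hab⟩
  refine hle.trans ?_
  rw [himg, image_add_left, measure_preimage_add, Measure.addHaar_image_linearMap, hdet]
  gcongr
  rw [abs_mul, abs_of_pos (by positivity : 0 < D ^ 2)]
  nlinarith [sq_pos_of_pos hD]

end Normal

end Vale.Agent.P243
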